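import Vale.Agent.Lib.P066H.Defs

/-!
The definitions used in the statement of the divided modular law and of its consequences.
-/

namespace Vale.Agent.Lib.P066T

open Finset

/-- The q-binomial coefficient `[n choose k]_q`, as a polynomial with natural number coefficients. -/
noncomputable def qbin : ℕ → ℕ → Polynomial ℕ
  | _, 0 => 1
  | 0, _ + 1 => 0
  | n + 1, k + 1 => qbin n (k + 1) + Polynomial.X ^ (n - k) * qbin n k

/-- The q-factorial `[n]_q!`, as a polynomial with natural number coefficients. -/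
noncomputable def qfac : ℕ → Polynomial ℕ
  | 0 => 1
  | n + 1 => qfac n * ∑ k ∈ range (n + 1), Polynomial.X ^ k

/-- The hypotheses on the graph `i < j ≤ h i` on the vertices `0, ..., n-1` outside the interval
`T = [p, p+t)`, for an interval `V = [u, u+w)` to the right of `T`: a vertex to the left of `T`
sees none or all of `T` and sees nothing in `V`, the vertices between `T` and `V` see all of `V`,
and the function `h` is constant on `V`. -/
structure Ctx (h : ℕ → ℕ) (n p t u w : ℕ) : Prop where
  ht : 1 ≤ t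
  hpt : p + t ≤ u
  huw : u + w ≤ n
  c1 : ∀ y, y < p → h y < p ∨ p + t - 1 ≤ h y
  c2 : ∀ y, y < p → h y < u
  c3 : ∀ y, p + t ≤ y → y < u → u + w - 1 ≤ h y
  c4 : ∀ v, u ≤ v → v < u + w → h v = h u
  c5 : u + w - 1 ≤ h u

/-- The graph `h` with new values `ρ` on the interval `T = [p, p+t)`. -/
def hmod (h : ℕ → ℕ) (p t : ℕ) (ρ : ℕ → ℕ) : ℕ → ℕ :=
  fun x => if p ≤ x ∧ x < p + t then ρ x else h x

/-- The hypotheses of the divided modular law: `T = [p, p+t)` splits into `T₁ = [p, p+t-r)`, whose
vertices see exactly up to `u-1`, and `T₂ = [p+t-r, p+t)`, whose vertices see exactly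
up to `u+w-1`, and `w ≤ t`. -/
structure RuleData (h : ℕ → ℕ) (n p t u w r : ℕ) : Prop extends Ctx h n p t u w where
  hr : r ≤ t
  hw : w ≤ t
  hT1 : ∀ x, p ≤ x → x < p + t - r → h x = u - 1
  hT2 : ∀ x, p + t - r ≤ x → x < p + t → h x = u + w - 1

/-- The disjoint union of the graph `h₁` on `n₁` vertices and the graph `h₂`, whose vertices are
shifted by `n₁`. -/
def unionH (n₁ : ℕ) (h₁ h₂ : ℕ → ℕ) : ℕ → ℕ :=
  fun v => if v < n₁ then min (h₁ v) (n₁ - 1) else n₁ + h₂ (v - n₁)

/-- `Twin n h d`: the graph on the vertices `0, ..., n-1` with edges `i < j ≤ h i` is obtained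
by the recursion below, which keeps track of a divisor `d` of its chromatic function. -/
inductive Twin : ℕ → (ℕ → ℕ) → Polynomial ℕ → Prop
  /-- The clique on `n` vertices, with the divisor `[n]_q!`. -/
  | clique (n : ℕ) : Twin n (fun _ => n - 1) (qfac n)
  /-- Disjoint unions. -/
  | union {n₁ n₂ : ℕ} {h₁ h₂ : ℕ → ℕ} {d₁ d₂ : Polynomial ℕ} :
      Twin n₁ h₁ d₁ → Twin n₂ h₂ d₂ → Twin (n₁ + n₂) (unionH n₁ h₁ h₂) (d₁ * d₂)
  /-- A divisor may be replaced by any of its factors. -/
  | weaken {n : ℕ} {h : ℕ → ℕ} {d d' : Polynomial ℕ} : Twin n h (d * d') → Twin n h d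
  /-- Only the edges of the graph matter. -/
  | congr {n : ℕ} {h h' : ℕ → ℕ} {d : Polynomial ℕ} :
      (∀ i j, i < j → j < n → (j ≤ h i ↔ j ≤ h' i)) → Twin n h' d → Twin n h d
  /-- The mirror image `i ↦ n-1-i` of a graph. -/
  | mirror {n : ℕ} {h h' : ℕ → ℕ} {d : Polynomial ℕ} :
      (∀ i j, i < j → j < n → (j ≤ h i ↔ n - 1 - i ≤ h' (n - 1 - j))) → Twin n h' d → Twin n h d
  /-- The divided modular law. -/
  | rule {n : ℕ} {h : ℕ → ℕ} {p t u w r : ℕ} (O : Polynomial ℕ) : RuleData h n p t u w r →
      (∀ j, j ≤ r → j ≤ w → r - j ≤ t - w →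
        Twin n (hmod h p t (fun _ => u + j - 1)) (qfac t * qfac j * qfac (w - j) * O)) →
      Twin n h (qfac r * qfac (t - r) * qfac w * O)

/-- The graph with the blocks `a, b, 1, ..., 1, d, e` (with `l` blocks of size one), where the
consecutive blocks are adjacent: a path between two cliques, which are melted: the clique on
`a + b` vertices is joined to the path by `b` of its vertices, and the clique on `d + e` vertices
by `d` of its vertices. The vertices are `0, ..., a+b+l+d+e-1`. -/
def meltedPath (a b l d e : ℕ) : ℕ → ℕ := fun v =>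
  if v < a then a + b - 1
  else if v + 1 < a + b + l then max (a + b) (v + 1)
  else if v + 1 = a + b + l then a + b + l + d - 1
  else a + b + l + d + e - 1

end Vale.Agent.Lib.P066T
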