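import Vale.Agent.Lib.P066T.Twin

/-!
An explicit family: paths with a melted clique at both ends.
-/

set_option linter.unusedSectionVars false

namespace Vale.Agent.Lib.P066T

open Finset Vale.Agent.Lib.P066H

/-- Two cliques with the blocks `x, d` and `d, e`. -/
def F3 (x d e : ℕ) : ℕ → ℕ := fun v => if v < x then x + d - 1 else x + d + e - 1

lemma qfac_zero : qfac 0 = 1 := rfl

lemma qfac_one : qfac 1 = 1 := by simp [qfac, qn]

lemma F3_two_cliques (x e n : ℕ) (hn : x + e = n) : Twin n (F3 x 0 e) (qfac x * qfac 0 * qfac e) := by
  subst hn
  have h1 := Twin.union (Twin.clique x) (Twin.clique e)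
  rw [qfac_zero, mul_one]
  refine Twin.congr (fun i j hij hj => ?_) h1
  simp only [F3, unionH]
  split_ifs <;> omega

lemma F3_zero (x d n : ℕ) (hn : x + d + 0 = n) : Twin n (F3 x d 0) (qfac x * qfac d * qfac 0) := by
  have h1 := Twin.clique n
  have h2 : Twin n (fun _ => n - 1) (qfac x * qfac d * qfac 0 * qbin (x + d) x) := by
    have := qbin_mul_qfac n x d (by omega)
    have e1 : qfac x * qfac d * qfac 0 * qbin (x + d) x = qfac n := by
      have e2 : x + d = n := by omega
      rw [qfac_zero, mul_one, mul_comm, ← mul_assoc, this, e2]
    rw [e1]
    exact h1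
  refine Twin.congr (fun i j hij hj => ?_) h2.weaken
  simp only [F3]
  split_ifs <;> omega

theorem F3_big : ∀ (e x d n : ℕ), x + d + e = n → e ≤ x + d →
    Twin n (F3 x d e) (qfac x * qfac d * qfac e) := by
  intro e
  induction e using Nat.strong_induction_on with
  | _ e ih =>
    intro x d n hn he
    by_cases he0 : e = 0
    · subst he0
      exact F3_zero x d n hn
    by_cases hd0 : d = 0
    · subst hd0
      exact F3_two_cliques x e n (by omega)
    have hd1 : 1 ≤ d := by omega
    have D : RuleData (F3 x d e) n 0 (x + d) (x + d) e d :=
      { ht := by omega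
        hpt := by omega
        huw := by omega
        c1 := fun y hy => absurd hy (by omega)
        c2 := fun y hy => absurd hy (by omega)
        c3 := fun y h1 h2 => absurd h2 (by omega)
        c4 := by
          intro v h1 h2
          simp only [F3]
          split_ifs <;> omega
        c5 := by
          simp only [F3]
          split_ifs <;> omega
        hr := by omega
        hw := by omega
        hT1 := by
          intro y h1 h2
          simp only [F3]
          split_ifs <;> omega
        hT2 := by
          intro y h1 h2
          simp only [F3]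
          split_ifs <;> omega }
    have e1 : qfac d * qfac (x + d - d) * qfac e * 1 = qfac x * qfac d * qfac e := by
      rw [Nat.add_sub_cancel]
      ring
    rw [← e1]
    refine Twin.rule 1 D fun j hjd hje hj => ?_
    have e2 : hmod (F3 x d e) 0 (x + d) (fun _ => x + d + j - 1) = F3 (x + d) j (e - j) := by
      funext v
      simp only [hmod, F3]
      split_ifs <;> omega
    rw [e2, mul_one]
    by_cases hj0 : j = 0
    · subst hj0
      exact F3_two_cliques (x + d) (e - 0) n (by omega)
    · exact ih (e - j) (by omega) (x + d) j n (by omega) (by omega)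

theorem F3_all (x d e n : ℕ) (hn : x + d + e = n) : Twin n (F3 x d e) (qfac x * qfac d * qfac e) := by
  by_cases he : e ≤ x + d
  · exact F3_big e x d n hn he
  · have h1 := F3_big x e d n (by omega) (by omega)
    have e1 : qfac e * qfac d * qfac x = qfac x * qfac d * qfac e := by ring
    rw [e1] at h1
    refine Twin.mirror (fun i j hij hj => ?_) h1
    simp only [F3]
    split_ifs <;> omega

/-- The blocks `e, d, 1, A` with the consecutive blocks adjacent. -/
def M4 (e d A : ℕ) : ℕ → ℕ :=
  fun v => if v < e then e + d - 1 else if v < e + d then e + d else e + d + A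

theorem M4_twin (e d A n : ℕ) (hd : 1 ≤ d) (hn : e + d + 1 + A = n) :
    Twin n (M4 e d A) (qfac d * qfac e * qfac A) := by
  have D : RuleData (M4 e d A) n 0 (e + d) (e + d) 1 d :=
    { ht := by omega
      hpt := by omega
      huw := by omega
      c1 := fun y hy => absurd hy (by omega)
      c2 := fun y hy => absurd hy (by omega)
      c3 := fun y h1 h2 => absurd h2 (by omega)
      c4 := by
        intro v h1 h2
        have : v = e + d := by omega
        rw [this]
      c5 := by
        simp only [M4]
        split_ifs <;> omega
      hr := by omega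
      hw := by omega
      hT1 := by
        intro y h1 h2
        simp only [M4]
        split_ifs <;> omega
      hT2 := by
        intro y h1 h2
        simp only [M4]
        split_ifs <;> omega }
  have e1 : qfac d * qfac (e + d - d) * qfac 1 * qfac A = qfac d * qfac e * qfac A := by
    rw [Nat.add_sub_cancel, qfac_one, mul_one]
  rw [← e1]
  refine Twin.rule (qfac A) D fun j hjd hj1 hj => ?_
  obtain rfl | rfl : j = 0 ∨ j = 1 := by omega
  · have e2 : hmod (M4 e d A) 0 (e + d) (fun _ => e + d + 0 - 1) = F3 (e + d) 0 (1 + A) := by
      funext v
      simp only [hmod, M4, F3]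
      split_ifs <;> omega
    rw [e2]
    have h1 := F3_all (e + d) 0 (1 + A) n (by omega)
    have e3 : qfac (e + d) * qfac 0 * qfac (1 + A)
        = qfac (e + d) * qfac 0 * qfac (1 - 0) * qfac A * qn (Polynomial.X : Polynomial ℕ) (A + 1) := by
      rw [add_comm 1 A]
      show qfac (e + d) * qfac 0 * (qfac A * qn (Polynomial.X : Polynomial ℕ) (A + 1)) = _
      rw [Nat.sub_zero, qfac_one]
      ring
    rw [e3] at h1
    exact h1.weaken
  · have e2 : hmod (M4 e d A) 0 (e + d) (fun _ => e + d + 1 - 1) = F3 (e + d) 1 A := by
      funext v
      simp only [hmod, M4, F3]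
      split_ifs <;> omega
    rw [e2]
    have h1 := F3_all (e + d) 1 A n (by omega)
    have e3 : qfac (e + d) * qfac 1 * qfac (1 - 1) * qfac A = qfac (e + d) * qfac 1 * qfac A := by
      rw [Nat.sub_self, qfac_zero, mul_one]
    rw [e3]
    exact h1

theorem meltedPath_base (A d e n : ℕ) (hd : 1 ≤ d) (hn : A + 1 + 0 + d + e = n) :
    Twin n (meltedPath A 1 0 d e) (qfac A * qfac 1 * qfac d * qfac e) := by
  have h1 := M4_twin e d A n hd (by omega)
  have e1 : qfac d * qfac e * qfac A = qfac A * qfac 1 * qfac d * qfac e := by
    rw [qfac_one]
    ring
  rw [e1] at h1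
  refine Twin.mirror (fun i j hij hj => ?_) h1
  simp only [meltedPath, M4]
  split_ifs <;> omega

theorem meltedPath_twin (d e : ℕ) (hd : 1 ≤ d) : ∀ (l a b n : ℕ), 1 ≤ b → (l = 0 → b = 1) →
    a + b + l + d + e = n →
    Twin n (meltedPath a b l d e) (qfac a * qfac b * qfac d * qfac e) := by
  intro l
  induction l using Nat.strong_induction_on with
  | _ l ih =>
    intro a b n hb hl hn
    by_cases hl0 : l = 0
    · subst hl0
      obtain rfl := hl rfl
      exact meltedPath_base a d e n hd hn
    have D : RuleData (meltedPath a b l d e) n 0 (a + b) (a + b) 1 b :=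
      { ht := by omega
        hpt := by omega
        huw := by omega
        c1 := fun y hy => absurd hy (by omega)
        c2 := fun y hy => absurd hy (by omega)
        c3 := fun y h1 h2 => absurd h2 (by omega)
        c4 := by
          intro v h1 h2
          have : v = a + b := by omega
          rw [this]
        c5 := by
          simp only [meltedPath]
          split_ifs <;> omega
        hr := by omega
        hw := by omega
        hT1 := by
          intro y h1 h2
          simp only [meltedPath]
          split_ifs <;> omega
        hT2 := by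
          intro y h1 h2
          simp only [meltedPath]
          split_ifs <;> omega }
    have e1 : qfac b * qfac (a + b - b) * qfac 1 * (qfac d * qfac e)
        = qfac a * qfac b * qfac d * qfac e := by
      rw [Nat.add_sub_cancel, qfac_one]
      ring
    rw [← e1]
    refine Twin.rule (qfac d * qfac e) D fun j hjb hj1 hj => ?_
    obtain rfl | rfl : j = 0 ∨ j = 1 := by omega
    · -- the clique on `a + b` vertices splits off
      rw [Nat.sub_zero, qfac_zero, qfac_one, mul_one, mul_one]
      by_cases hl1 : l = 1
      · subst hl1
        have h1 := F3_all 1 d e (1 + d + e) rfl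
        have h2 := Twin.union (Twin.clique (a + b)) h1
        have e3 : qfac (a + b) * (qfac 1 * qfac d * qfac e) = qfac (a + b) * (qfac d * qfac e) := by
          rw [qfac_one, one_mul]
        rw [e3] at h2
        have e4 : a + b + (1 + d + e) = n := by omega
        rw [e4] at h2
        refine Twin.congr (fun i j hij hj => ?_) h2
        simp only [hmod, meltedPath, unionH, F3]
        split_ifs <;> omega
      · have h1 := ih (l - 2) (by omega) 1 1 (l - 2 + 1 + 1 + d + e) (by omega) (fun _ => rfl) (by omega)
        have h2 := Twin.union (Twin.clique (a + b)) h1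
        have e3 : qfac (a + b) * (qfac 1 * qfac 1 * qfac d * qfac e)
            = qfac (a + b) * (qfac d * qfac e) := by
          rw [qfac_one, one_mul, one_mul]
        rw [e3] at h2
        have e4 : a + b + (l - 2 + 1 + 1 + d + e) = n := by omega
        rw [e4] at h2
        refine Twin.congr (fun i j hij hj => ?_) h2
        simp only [hmod, meltedPath, unionH]
        split_ifs <;> omega
    · have e2 : hmod (meltedPath a b l d e) 0 (a + b) (fun _ => a + b + 1 - 1)
          = meltedPath (a + b) 1 (l - 1) d e := by
        funext v
        simp only [hmod, meltedPath]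
        split_ifs <;> omega
      rw [e2]
      have h1 := ih (l - 1) (by omega) (a + b) 1 n (by omega) (fun _ => rfl) (by omega)
      have e3 : qfac (a + b) * qfac 1 * qfac (1 - 1) * (qfac d * qfac e)
          = qfac (a + b) * qfac 1 * qfac d * qfac e := by
        rw [Nat.sub_self, qfac_zero]
        ring
      rw [e3]
      exact h1

theorem meltedPath_spec (a b l d e : ℕ) (hb : 1 ≤ b) (hl : 1 ≤ l) :
    (∀ v, v < a + b + l + d + e → v ≤ meltedPath a b l d e v
        ∧ meltedPath a b l d e v < a + b + l + d + e) ∧
    (∀ u v, u ≤ v → v < a + b + l + d + e → meltedPath a b l d e u ≤ meltedPath a b l d e v) := by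
  constructor
  · intro v hv
    simp only [meltedPath]
    split_ifs <;> omega
  · intro u v huv hv
    simp only [meltedPath]
    split_ifs <;> omega

end Vale.Agent.Lib.P066T
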