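import Vale.Agent.Lib.P066T.Star

/-!
The local form of the divided modular law: from tuples of colours on two cliques to colour sets.
-/

set_option linter.unusedSectionVars false

namespace Vale.Agent.Lib.P066T

open Finset Vale.Agent.Lib.P066H

section local_law

variable {κ R : Type*} [LinearOrder κ] [Fintype κ] [CommRing R] (q : R)

/-- The q-factorial in the ring `R`. -/
def qfr : ℕ → R
  | 0 => 1
  | n + 1 => qfr n * qn q (n + 1)

/-- Sum over the colourings of a clique, by the colour set. -/
theorem clique_all (k : ℕ) (Ψ : Finset κ → R) :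
    ∑ g : Fin k → κ, cwt q g * Ψ (univ.image g)
      = qfr q k * ∑ S ∈ powersetCard k (univ : Finset κ), Ψ S := by
  induction k generalizing Ψ with
  | zero =>
    simp [cwt, qfr]
  | succ k ih =>
    rw [sum_snoc]
    set Ψ' : Finset κ → R := fun S' => ∑ p, (∏ y ∈ S', ef q y p) * Ψ (insert p S') with hΨ'
    have h1 : ∀ g : Fin k → κ,
        ∑ p, cwt q (Fin.snoc g p : Fin (k + 1) → κ)
            * Ψ (univ.image (Fin.snoc g p : Fin (k + 1) → κ))
          = cwt q g * Ψ' (univ.image g) := by
      intro g
      by_cases hg : Function.Injective g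
      · rw [hΨ']
        simp only
        rw [mul_sum]
        refine sum_congr rfl fun p _ => ?_
        rw [cwt_snoc, image_snoc, prod_image (fun a _ b _ h => hg h)]
        ring
      · simp [cwt_snoc, cwt_eq_zero_of_not_injective q g hg]
    rw [sum_congr rfl (fun g _ => h1 g), ih Ψ']
    have h2 : ∀ S' ∈ powersetCard k (univ : Finset κ),
        Ψ' S' = ∑ p ∈ univ \ S', q ^ nlt S' p * Ψ (insert p S') := by
      intro S' _
      rw [hΨ']
      simp only
      have : (univ : Finset κ) = (univ \ S') ∪ S' := by simp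
      conv_lhs => rw [this]
      rw [sum_union (sdiff_disjoint)]
      have h3 : ∑ p ∈ S', (∏ y ∈ S', ef q y p) * Ψ (insert p S') = 0 := by
        refine sum_eq_zero fun p hp => ?_
        rw [prod_ef_left, if_pos hp]
        ring
      rw [h3, add_zero]
      refine sum_congr rfl fun p hp => ?_
      have hp' : p ∉ S' := (mem_sdiff.mp hp).2
      rw [prod_ef_left, if_neg hp']
    rw [sum_congr rfl h2, sum_exchange k (fun S' p => q ^ nlt S' p * Ψ (insert p S'))]
    have h3 : ∀ S ∈ powersetCard (k + 1) (univ : Finset κ),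
        ∑ p ∈ S, q ^ nlt (S.erase p) p * Ψ (insert p (S.erase p)) = qn q (k + 1) * Ψ S := by
      intro S hS
      have hcard : S.card = k + 1 := (mem_powersetCard.mp hS).2
      have : ∀ p ∈ S, q ^ nlt (S.erase p) p * Ψ (insert p (S.erase p))
          = q ^ nlt (S.erase p) p * Ψ S := fun p hp => by rw [insert_erase hp]
      rw [sum_congr rfl this, ← sum_mul, sum_q_nlt, hcard]
    rw [sum_congr rfl h3, ← mul_sum]
    simp only [qfr]
    ring

/-- The clique weight of an appended tuple. -/
lemma cwt_append {m l : ℕ} (a : Fin m → κ) (b : Fin l → κ) :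
    cwt q (Fin.append a b) = cwt q a * cwt q b * ∏ i : Fin m, ∏ j : Fin l, ef q (a i) (b j) := by
  unfold cwt
  rw [prod_square_add]
  simp only [Fin.append_left, Fin.append_right]
  have h1 : ∀ (i j : Fin m), (Fin.castAdd l i < Fin.castAdd l j) ↔ i < j := fun i j => Iff.rfl
  have h2 : ∀ (i : Fin m) (j : Fin l), Fin.castAdd l i < Fin.natAdd m j := by
    intro i j
    show (i : ℕ) < m + (j : ℕ)
    have := i.isLt
    omega
  have h3 : ∀ (i : Fin l) (j : Fin m), ¬ Fin.natAdd m i < Fin.castAdd l j := by
    intro i j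
    show ¬ (m + (i : ℕ) < (j : ℕ))
    have := j.isLt
    omega
  have h4 : ∀ (i j : Fin l), (Fin.natAdd m i < Fin.natAdd m j) ↔ i < j := by
    intro i j
    show m + (i : ℕ) < m + (j : ℕ) ↔ (i : ℕ) < j
    omega
  simp only [h1, h2, h3, h4, if_true, if_false, prod_const_one]
  ring

lemma prod_ef_eq_phi {m l : ℕ} {a : Fin m → κ} {b : Fin l → κ} (ha : Function.Injective a)
    (hb : Function.Injective b) :
    ∏ i : Fin m, ∏ j : Fin l, ef q (a i) (b j) = phi q (univ.image a) (univ.image b) := by
  unfold phi
  rw [prod_image (fun x _ y _ h => ha h)]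
  refine prod_congr rfl fun i _ => ?_
  rw [prod_image (fun x _ y _ h => hb h)]

/-- Sum over the colourings of two consecutive parts of a clique, by colour sets. -/
theorem two_block (m l : ℕ) (Ψ : Finset κ → Finset κ → R) :
    ∑ g : Fin (m + l) → κ, cwt q g
        * Ψ (univ.image fun i : Fin m => g (Fin.castAdd l i))
            (univ.image fun j : Fin l => g (Fin.natAdd m j))
      = qfr q m * qfr q l * ∑ S₁ ∈ powersetCard m (univ : Finset κ),
          ∑ S₂ ∈ powersetCard l (univ : Finset κ), phi q S₁ S₂ * Ψ S₁ S₂ := by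
  rw [sum_append]
  have h1 : ∀ (a : Fin m → κ) (b : Fin l → κ),
      cwt q (Fin.append a b)
        * Ψ (univ.image fun i : Fin m => (Fin.append a b) (Fin.castAdd l i))
            (univ.image fun j : Fin l => (Fin.append a b) (Fin.natAdd m j))
      = cwt q a * (cwt q b * (phi q (univ.image a) (univ.image b)
          * Ψ (univ.image a) (univ.image b))) := by
    intro a b
    simp only [Fin.append_left, Fin.append_right]
    by_cases ha : Function.Injective a
    · by_cases hb : Function.Injective b
      · rw [cwt_append, prod_ef_eq_phi q ha hb]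
        ring
      · simp [cwt_append, cwt_eq_zero_of_not_injective q b hb]
    · simp [cwt_append, cwt_eq_zero_of_not_injective q a ha]
  simp only [h1]
  have h2 : ∀ a : Fin m → κ, ∑ b : Fin l → κ, cwt q a * (cwt q b
        * (phi q (univ.image a) (univ.image b) * Ψ (univ.image a) (univ.image b)))
      = cwt q a * (qfr q l * ∑ S₂ ∈ powersetCard l (univ : Finset κ),
          phi q (univ.image a) S₂ * Ψ (univ.image a) S₂) := by
    intro a
    rw [← mul_sum, clique_all q l (fun S₂ => phi q (univ.image a) S₂ * Ψ (univ.image a) S₂)]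
  simp only [h2]
  rw [clique_all q m (fun S₁ => qfr q l * ∑ S₂ ∈ powersetCard l (univ : Finset κ),
          phi q S₁ S₂ * Ψ S₁ S₂), ← mul_sum]
  ring

/-- Regrouping a sum over two colour sets by their union (the second set chosen in the union). -/
theorem regroup_right (m l : ℕ) (G : Finset κ → Finset κ → R) :
    ∑ S₁ ∈ powersetCard m (univ : Finset κ), ∑ S₂ ∈ powersetCard l (univ : Finset κ),
        phi q S₁ S₂ * G S₁ S₂
      = ∑ S ∈ powersetCard (m + l) (univ : Finset κ), ∑ S₂ ∈ S.powersetCard l,
          phi q (S \ S₂) S₂ * G (S \ S₂) S₂ := by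
  rw [sum_sigma', sum_sigma']
  refine sum_bij_ne_zero (fun x _ _ => ⟨x.1 ∪ x.2, x.2⟩) ?_ ?_ ?_ ?_
  · rintro ⟨S₁, S₂⟩ hx hne
    simp only [mem_sigma, mem_powersetCard, subset_univ, true_and] at hx ⊢
    have hd : Disjoint S₁ S₂ := by
      rw [disjoint_left]
      intro a h1 h2
      exact hne (by rw [phi_eq_zero_of_mem q h1 h2, zero_mul])
    refine ⟨by rw [card_union_of_disjoint hd, hx.1, hx.2], subset_union_right, hx.2⟩
  · rintro ⟨S₁, S₂⟩ hx hne ⟨S₁', S₂'⟩ hy hne' heq
    simp only [Sigma.mk.injEq, heq_eq_eq] at heq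
    obtain ⟨h1, rfl⟩ := heq
    have hd : Disjoint S₁ S₂ := by
      rw [disjoint_left]
      intro a h1 h2
      exact hne (by rw [phi_eq_zero_of_mem q h1 h2, zero_mul])
    have hd' : Disjoint S₁' S₂ := by
      rw [disjoint_left]
      intro a h1 h2
      exact hne' (by rw [phi_eq_zero_of_mem q h1 h2, zero_mul])
    have : S₁ = S₁' := by
      have e1 : S₁ = (S₁ ∪ S₂) \ S₂ := by rw [union_sdiff_right, sdiff_eq_self_of_disjoint hd]
      have e2 : S₁' = (S₁' ∪ S₂) \ S₂ := by rw [union_sdiff_right, sdiff_eq_self_of_disjoint hd']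
      rw [e1, e2, h1]
    rw [this]
  · rintro ⟨S, S₂⟩ hx hne
    simp only [mem_sigma, mem_powersetCard, subset_univ, true_and] at hx
    refine ⟨⟨S \ S₂, S₂⟩, ?_, ?_, ?_⟩
    · simp only [mem_sigma, mem_powersetCard, subset_univ, true_and]
      exact ⟨by rw [card_sdiff_of_subset hx.2.1, hx.1, hx.2.2]; omega, hx.2.2⟩
    · exact hne
    · simp only [Sigma.mk.injEq, heq_eq_eq, and_true]
      exact sdiff_union_of_subset hx.2.1
  · rintro ⟨S₁, S₂⟩ hx hne
    simp only
    have hd : Disjoint S₁ S₂ := by
      rw [disjoint_left]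
      intro a h1 h2
      exact hne (by rw [phi_eq_zero_of_mem q h1 h2, zero_mul])
    have : (S₁ ∪ S₂) \ S₂ = S₁ := by rw [union_sdiff_right, sdiff_eq_self_of_disjoint hd]
    rw [this]

/-- Regrouping a sum over two colour sets by their union (the first set chosen in the union). -/
theorem regroup_left (m l : ℕ) (G : Finset κ → Finset κ → R) :
    ∑ S₁ ∈ powersetCard m (univ : Finset κ), ∑ S₂ ∈ powersetCard l (univ : Finset κ),
        phi q S₁ S₂ * G S₁ S₂
      = ∑ S ∈ powersetCard (m + l) (univ : Finset κ), ∑ S₁ ∈ S.powersetCard m,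
          phi q S₁ (S \ S₁) * G S₁ (S \ S₁) := by
  rw [sum_sigma', sum_sigma']
  refine sum_bij_ne_zero (fun x _ _ => ⟨x.1 ∪ x.2, x.1⟩) ?_ ?_ ?_ ?_
  · rintro ⟨S₁, S₂⟩ hx hne
    simp only [mem_sigma, mem_powersetCard, subset_univ, true_and] at hx ⊢
    have hd : Disjoint S₁ S₂ := by
      rw [disjoint_left]
      intro a h1 h2
      exact hne (by rw [phi_eq_zero_of_mem q h1 h2, zero_mul])
    refine ⟨by rw [card_union_of_disjoint hd, hx.1, hx.2], subset_union_left, hx.1⟩
  · rintro ⟨S₁, S₂⟩ hx hne ⟨S₁', S₂'⟩ hy hne' heq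
    simp only [Sigma.mk.injEq, heq_eq_eq] at heq
    obtain ⟨h1, rfl⟩ := heq
    have hd : Disjoint S₁ S₂ := by
      rw [disjoint_left]
      intro a h1 h2
      exact hne (by rw [phi_eq_zero_of_mem q h1 h2, zero_mul])
    have hd' : Disjoint S₁ S₂' := by
      rw [disjoint_left]
      intro a h1 h2
      exact hne' (by rw [phi_eq_zero_of_mem q h1 h2, zero_mul])
    have : S₂ = S₂' := by
      have e1 : S₂ = (S₁ ∪ S₂) \ S₁ := by rw [union_sdiff_left, sdiff_eq_self_of_disjoint hd.symm]
      have e2 : S₂' = (S₁ ∪ S₂') \ S₁ := by rw [union_sdiff_left, sdiff_eq_self_of_disjoint hd'.symm]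
      rw [e1, e2, h1]
    rw [this]
  · rintro ⟨S, S₁⟩ hx hne
    simp only [mem_sigma, mem_powersetCard, subset_univ, true_and] at hx
    refine ⟨⟨S₁, S \ S₁⟩, ?_, ?_, ?_⟩
    · simp only [mem_sigma, mem_powersetCard, subset_univ, true_and]
      exact ⟨hx.2.2, by rw [card_sdiff_of_subset hx.2.1, hx.1, hx.2.2]; omega⟩
    · exact hne
    · simp only [Sigma.mk.injEq, heq_eq_eq, and_true]
      exact union_sdiff_of_subset hx.2.1
  · rintro ⟨S₁, S₂⟩ hx hne
    simp only
    have hd : Disjoint S₁ S₂ := by
      rw [disjoint_left]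
      intro a h1 h2
      exact hne (by rw [phi_eq_zero_of_mem q h1 h2, zero_mul])
    have : (S₁ ∪ S₂) \ S₁ = S₂ := by rw [union_sdiff_left, sdiff_eq_self_of_disjoint hd.symm]
    rw [this]

/-- Product of a colour weight over a colour set. -/
def prodS (α : κ → R) (S : Finset κ) : R := ∏ s ∈ S, α s

lemma tw_eq_prodS (α : κ → R) {k : ℕ} {g : Fin k → κ} (hg : Function.Injective g) :
    tw α g = prodS α (univ.image g) := by
  unfold tw prodS
  rw [prod_image (fun x _ y _ h => hg h)]

/-- The sum over the colourings of two cliques with the attaching pattern `P`. -/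
def Iloc (α β : κ → R) (t w : ℕ) (P : ℕ → ℕ → Prop) [∀ i l, Decidable (P i l)] : R :=
  ∑ a : Fin t → κ, ∑ b : Fin w → κ, tw α a * tw β b * cwt q a * cwt q b
    * ∏ i : Fin t, ∏ l : Fin w, if P i l then ef q (a i) (b l) else 1

theorem Iloc_left (α β : κ → R) (m r w : ℕ) :
    Iloc q α β (m + r) w (fun i _ => m ≤ i)
      = qfr q m * qfr q r * qfr q w * ∑ S ∈ powersetCard (m + r) (univ : Finset κ),
          ∑ D ∈ powersetCard w (univ : Finset κ), prodS α S * prodS β D * Lhs q S D r := by
  set Ψ : Finset κ → Finset κ → R := fun S₁ S₂ => prodS α S₁ * prodS α S₂ *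
    (qfr q w * ∑ D ∈ powersetCard w (univ : Finset κ), prodS β D * phi q S₂ D) with hΨ
  have h1 : ∀ g : Fin (m + r) → κ, ∑ b : Fin w → κ, tw α g * tw β b * cwt q g * cwt q b
        * (∏ i : Fin (m + r), ∏ l : Fin w, if m ≤ (i : ℕ) then ef q (g i) (b l) else 1)
      = cwt q g * Ψ (univ.image fun i : Fin m => g (Fin.castAdd r i))
          (univ.image fun j : Fin r => g (Fin.natAdd m j)) := by
    intro g
    by_cases hg : Function.Injective g
    · have hg1 : Function.Injective fun i : Fin m => g (Fin.castAdd r i) :=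
        fun x y h => Fin.castAdd_injective _ _ (hg h)
      have hg2 : Function.Injective fun j : Fin r => g (Fin.natAdd m j) :=
        fun x y h => Fin.natAdd_injective _ _ (hg h)
      have ht : tw α g = prodS α (univ.image fun i : Fin m => g (Fin.castAdd r i))
          * prodS α (univ.image fun j : Fin r => g (Fin.natAdd m j)) := by
        rw [← tw_eq_prodS α hg1, ← tw_eq_prodS α hg2]
        unfold tw
        rw [Fin.prod_univ_add]
      have hp : ∀ b : Fin w → κ, Function.Injective b →
          (∏ i : Fin (m + r), ∏ l : Fin w, if m ≤ (i : ℕ) then ef q (g i) (b l) else 1)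
            = phi q (univ.image fun j : Fin r => g (Fin.natAdd m j)) (univ.image b) := by
        intro b hb
        rw [Fin.prod_univ_add, ← prod_ef_eq_phi q hg2 hb]
        have h2 : ∀ i : Fin m, ∏ l : Fin w,
            (if m ≤ ((Fin.castAdd r i : Fin (m + r)) : ℕ)
              then ef q (g (Fin.castAdd r i)) (b l) else 1) = 1 := by
          intro i
          refine prod_eq_one fun l _ => ?_
          rw [if_neg]
          simp
        have h3 : ∀ (j : Fin r) (l : Fin w),
            (if m ≤ ((Fin.natAdd m j : Fin (m + r)) : ℕ)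
              then ef q (g (Fin.natAdd m j)) (b l) else 1) = ef q (g (Fin.natAdd m j)) (b l) := by
          intro j l
          rw [if_pos]
          simp
        simp only [h2, h3, prod_const_one, one_mul]
      have hb : ∀ b : Fin w → κ, tw α g * tw β b * cwt q g * cwt q b
            * (∏ i : Fin (m + r), ∏ l : Fin w, if m ≤ (i : ℕ) then ef q (g i) (b l) else 1)
          = cwt q g * tw α g * (cwt q b * (prodS β (univ.image b)
              * phi q (univ.image fun j : Fin r => g (Fin.natAdd m j)) (univ.image b))) := by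
        intro b
        by_cases hb : Function.Injective b
        · rw [hp b hb, tw_eq_prodS β hb]
          ring
        · simp [cwt_eq_zero_of_not_injective q b hb]
      simp only [hb]
      rw [← mul_sum, clique_all q w (fun D => prodS β D
        * phi q (univ.image fun j : Fin r => g (Fin.natAdd m j)) D), ht, hΨ]
      ring
    · simp [cwt_eq_zero_of_not_injective q g hg]
  unfold Iloc
  simp only [h1]
  rw [two_block q m r Ψ, regroup_right q m r Ψ, mul_assoc, mul_assoc, mul_assoc]
  congr 2
  rw [mul_sum]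
  refine sum_congr rfl fun S _ => ?_
  have h4 : ∀ S₂ ∈ S.powersetCard r, phi q (S \ S₂) S₂ * Ψ (S \ S₂) S₂
      = qfr q w * ∑ D ∈ powersetCard w (univ : Finset κ), prodS α S * prodS β D
          * (phi q (S \ S₂) S₂ * phi q S₂ D) := by
    intro S₂ hS₂
    have hsub := (mem_powersetCard.mp hS₂).1
    have : prodS α (S \ S₂) * prodS α S₂ = prodS α S := by
      unfold prodS
      exact prod_sdiff hsub
    rw [hΨ]
    simp only
    rw [this, mul_sum, mul_sum, mul_sum, mul_sum]
    refine sum_congr rfl fun D _ => ?_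
    ring
  rw [sum_congr rfl h4, ← mul_sum, sum_comm]
  congr 1
  refine sum_congr rfl fun D _ => ?_
  unfold Lhs
  rw [mul_sum]

theorem Iloc_right (α β : κ → R) (t j l : ℕ) :
    Iloc q α β t (j + l) (fun _ x => x < j)
      = qfr q t * qfr q j * qfr q l * ∑ S ∈ powersetCard t (univ : Finset κ),
          ∑ D ∈ powersetCard (j + l) (univ : Finset κ), prodS α S * prodS β D * Rhs q S D j := by
  have h1 : ∀ a : Fin t → κ, Function.Injective a →
      ∑ b : Fin (j + l) → κ, tw α a * tw β b * cwt q a * cwt q b
        * (∏ i : Fin t, ∏ x : Fin (j + l), if (x : ℕ) < j then ef q (a i) (b x) else 1)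
      = cwt q a * (prodS α (univ.image a) * (qfr q j * qfr q l
          * ∑ D ∈ powersetCard (j + l) (univ : Finset κ), prodS β D * Rhs q (univ.image a) D j)) := by
    intro a ha
    set Ψ : Finset κ → Finset κ → R := fun D₁ D₂ => prodS β D₁ * prodS β D₂ * phi q (univ.image a) D₁
      with hΨ
    have h2 : ∀ g : Fin (j + l) → κ, tw α a * tw β g * cwt q a * cwt q g
          * (∏ i : Fin t, ∏ x : Fin (j + l), if (x : ℕ) < j then ef q (a i) (g x) else 1)
        = cwt q a * tw α a * (cwt q g * Ψ (univ.image fun i : Fin j => g (Fin.castAdd l i))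
            (univ.image fun y : Fin l => g (Fin.natAdd j y))) := by
      intro g
      by_cases hg : Function.Injective g
      · have hg1 : Function.Injective fun i : Fin j => g (Fin.castAdd l i) :=
          fun x y h => Fin.castAdd_injective _ _ (hg h)
        have hg2 : Function.Injective fun y : Fin l => g (Fin.natAdd j y) :=
          fun x y h => Fin.natAdd_injective _ _ (hg h)
        have ht : tw β g = prodS β (univ.image fun i : Fin j => g (Fin.castAdd l i))
            * prodS β (univ.image fun y : Fin l => g (Fin.natAdd j y)) := by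
          rw [← tw_eq_prodS β hg1, ← tw_eq_prodS β hg2]
          unfold tw
          rw [Fin.prod_univ_add]
        have hp : (∏ i : Fin t, ∏ x : Fin (j + l), if (x : ℕ) < j then ef q (a i) (g x) else 1)
            = phi q (univ.image a) (univ.image fun i : Fin j => g (Fin.castAdd l i)) := by
          rw [← prod_ef_eq_phi q ha hg1]
          refine prod_congr rfl fun i _ => ?_
          rw [Fin.prod_univ_add]
          have h3 : ∀ x : Fin j, (if ((Fin.castAdd l x : Fin (j + l)) : ℕ) < j
              then ef q (a i) (g (Fin.castAdd l x)) else 1) = ef q (a i) (g (Fin.castAdd l x)) := by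
            intro x
            rw [if_pos]
            simp
          have h4 : ∀ y : Fin l, (if ((Fin.natAdd j y : Fin (j + l)) : ℕ) < j
              then ef q (a i) (g (Fin.natAdd j y)) else 1) = 1 := by
            intro y
            rw [if_neg]
            simp
          simp only [h3, h4, prod_const_one, mul_one]
        rw [hp, ht, hΨ]
        ring
      · simp [cwt_eq_zero_of_not_injective q g hg]
    simp only [h2]
    rw [← mul_sum, two_block q j l Ψ, regroup_left q j l Ψ]
    have h5 : ∀ D ∈ powersetCard (j + l) (univ : Finset κ), ∑ D₁ ∈ D.powersetCard j,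
          phi q D₁ (D \ D₁) * Ψ D₁ (D \ D₁) = prodS β D * Rhs q (univ.image a) D j := by
      intro D _
      unfold Rhs
      rw [mul_sum]
      refine sum_congr rfl fun D₁ hD₁ => ?_
      have hsub := (mem_powersetCard.mp hD₁).1
      have : prodS β D₁ * prodS β (D \ D₁) = prodS β D := by
        rw [mul_comm]
        unfold prodS
        exact prod_sdiff hsub
      rw [hΨ]
      simp only
      rw [this]
      ring
    rw [sum_congr rfl h5, tw_eq_prodS α ha]
    ring
  have h2 : ∀ a : Fin t → κ,
      ∑ b : Fin (j + l) → κ, tw α a * tw β b * cwt q a * cwt q b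
        * (∏ i : Fin t, ∏ x : Fin (j + l), if (x : ℕ) < j then ef q (a i) (b x) else 1)
      = cwt q a * (prodS α (univ.image a) * (qfr q j * qfr q l
          * ∑ D ∈ powersetCard (j + l) (univ : Finset κ), prodS β D * Rhs q (univ.image a) D j)) := by
    intro a
    by_cases ha : Function.Injective a
    · exact h1 a ha
    · simp [cwt_eq_zero_of_not_injective q a ha]
  unfold Iloc
  simp only [h2]
  rw [clique_all q t (fun S => prodS α S * (qfr q j * qfr q l
          * ∑ D ∈ powersetCard (j + l) (univ : Finset κ), prodS β D * Rhs q S D j))]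
  rw [mul_assoc, mul_assoc]
  congr 1
  simp only [mul_sum]
  refine sum_congr rfl fun S _ => sum_congr rfl fun D _ => ?_
  ring

end local_law

section rule

open Polynomial

variable {κ R : Type*} [LinearOrder κ] [Fintype κ] [CommRing R] (θ : Polynomial ℤ →+* R)

/-- The coefficient map from `ℕ[q]` to the ring `R`. -/
noncomputable def psi : Polynomial ℕ →+* R :=
  θ.comp (Polynomial.mapRingHom (Nat.castRingHom ℤ))

lemma psi_X : psi θ X = θ X := by simp [psi]

lemma psi_apply (p : Polynomial ℕ) : psi θ p = θ (p.map (Nat.castRingHom ℤ)) := rfl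

lemma psi_qfac : ∀ k : ℕ, psi θ (qfac k) = qfr (θ X) k
  | 0 => by simp [qfac, qfr]
  | k + 1 => by
    rw [show qfac (k + 1) = qfac k * qn (X : Polynomial ℕ) (k + 1) from rfl, map_mul, psi_qfac k,
      map_qn, psi_X]
    rfl

lemma qbin_qfr (a b : ℕ) : psi θ (qbin (a + b) a) * qfr (θ X) a * qfr (θ X) b = qfr (θ X) (a + b) := by
  rw [← psi_qfac, ← psi_qfac, ← psi_qfac, ← map_mul, ← map_mul, qbin_mul_qfac _ a b rfl]

/-- The local divided modular law. -/
theorem local_rule (α β : κ → R) (t w r : ℕ) (hr : r ≤ t) (hw : w ≤ t) :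
    psi θ (qbin t r) * Iloc (θ X) α β t w (fun i _ => t - r ≤ i)
      = ∑ j ∈ range (r + 1), psi θ (qbin (t - w) (r - j)) * (θ X) ^ ((w - j) * (r - j))
          * psi θ (qbin w j) * Iloc (θ X) α β t w (fun _ x => x < j) := by
  obtain ⟨m, rfl⟩ : ∃ m, t = m + r := ⟨t - r, by omega⟩
  have e : m + r - r = m := by omega
  simp only [e]
  rw [Iloc_left]
  have h1 : psi θ (qbin (m + r) r) * (qfr (θ X) m * qfr (θ X) r) = qfr (θ X) (m + r) := by
    have := qbin_qfr θ r m
    rw [add_comm r m] at this
    rw [← this]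
    ring
  have hR : ∀ j ∈ range (r + 1), psi θ (qbin (m + r - w) (r - j)) * (θ X) ^ ((w - j) * (r - j))
        * psi θ (qbin w j) * Iloc (θ X) α β (m + r) w (fun _ x => x < j)
      = qfr (θ X) (m + r) * qfr (θ X) w * (psi θ (qbin (m + r - w) (r - j))
          * (θ X) ^ ((w - j) * (r - j))
          * ∑ S ∈ powersetCard (m + r) (univ : Finset κ), ∑ D ∈ powersetCard w (univ : Finset κ),
              prodS α S * prodS β D * Rhs (θ X) S D j) := by
    intro j _
    by_cases hj : j ≤ w
    · obtain ⟨l, rfl⟩ := Nat.exists_eq_add_of_le hj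
      rw [Iloc_right]
      have h2 := qbin_qfr θ j l
      rw [← h2]
      ring
    · have h0 : ∀ S D : Finset κ, D ∈ powersetCard w (univ : Finset κ) → Rhs (θ X) S D j = 0 := by
        intro S D hD
        exact Rhs_eq_zero_of_lt _ _ _ (by rw [(mem_powersetCard.mp hD).2]; omega)
      have h3 : qbin w j = 0 := qbin_eq_zero w j (by omega)
      rw [h3, map_zero, mul_zero, zero_mul]
      have : ∑ S ∈ powersetCard (m + r) (univ : Finset κ), ∑ D ∈ powersetCard w (univ : Finset κ),
              prodS α S * prodS β D * Rhs (θ X) S D j = 0 := by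
        refine sum_eq_zero fun S _ => sum_eq_zero fun D hD => ?_
        rw [h0 S D hD, mul_zero]
      rw [this, mul_zero, mul_zero]
  rw [sum_congr rfl hR, ← mul_sum]
  have hL : psi θ (qbin (m + r) r) * (qfr (θ X) m * qfr (θ X) r * qfr (θ X) w
        * ∑ S ∈ powersetCard (m + r) (univ : Finset κ), ∑ D ∈ powersetCard w (univ : Finset κ),
            prodS α S * prodS β D * Lhs (θ X) S D r)
      = qfr (θ X) (m + r) * qfr (θ X) w
        * ∑ S ∈ powersetCard (m + r) (univ : Finset κ), ∑ D ∈ powersetCard w (univ : Finset κ),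
            prodS α S * prodS β D * Lhs (θ X) S D r := by
    rw [← h1]
    ring
  rw [hL]
  congr 1
  -- apply the colour set identity
  have hS : ∀ S ∈ powersetCard (m + r) (univ : Finset κ), ∀ D ∈ powersetCard w (univ : Finset κ),
      prodS α S * prodS β D * Lhs (θ X) S D r
        = ∑ j ∈ range (r + 1), psi θ (qbin (m + r - w) (r - j)) * (θ X) ^ ((w - j) * (r - j))
            * (prodS α S * prodS β D * Rhs (θ X) S D j) := by
    intro S hS D hD
    have hcS := (mem_powersetCard.mp hS).2
    have hcD := (mem_powersetCard.mp hD).2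
    rw [star_ring θ S D (by omega) r, mul_sum, hcS, hcD]
    refine sum_congr rfl fun j _ => ?_
    rw [psi_apply]
    ring
  rw [sum_congr rfl fun S hS' => sum_congr rfl fun D hD' => hS S hS' D hD']
  have h6 : ∀ S : Finset κ, ∑ D ∈ powersetCard w (univ : Finset κ), ∑ j ∈ range (r + 1),
      psi θ (qbin (m + r - w) (r - j)) * (θ X) ^ ((w - j) * (r - j))
            * (prodS α S * prodS β D * Rhs (θ X) S D j)
      = ∑ j ∈ range (r + 1), ∑ D ∈ powersetCard w (univ : Finset κ),
      psi θ (qbin (m + r - w) (r - j)) * (θ X) ^ ((w - j) * (r - j))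
            * (prodS α S * prodS β D * Rhs (θ X) S D j) := fun S => sum_comm
  simp only [h6]
  rw [sum_comm]
  refine sum_congr rfl fun j _ => ?_
  rw [mul_sum]
  refine sum_congr rfl fun S _ => ?_
  rw [mul_sum]

end rule

end Vale.Agent.Lib.P066T
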