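import Vale.Agent.Lib.P066T.Rule

/-!
The bookkeeping of divisors: `Pos n h d` says that the chromatic function of `h` is `d` times an
`e`-positive function.
-/

set_option linter.unusedSectionVars false

namespace Vale.Agent.Lib.P066T

open Finset Vale.Agent.Lib.P066H

/-- The chromatic function of `h` is `d` times an `e`-positive function. -/
def Pos (n : ℕ) (h : ℕ → ℕ) (d : Polynomial ℕ) : Prop :=
  ∃ F : FF, WH n F ∧ ∀ N, chromQ h n N = coefHom N d * ev N F

section basic

variable {n : ℕ} {h h' : ℕ → ℕ} {d d' : Polynomial ℕ}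

lemma WH_C_mul {w : ℕ} (c : Polynomial ℕ) {F : FF} (hF : WH w F) : WH w (MvPolynomial.C c * F) := by
  have := (MvPolynomial.isWeightedHomogeneous_C (fun k : ℕ => k + 1) c).mul hF
  simpa using this

lemma Pos.weaken (H : Pos n h (d * d')) : Pos n h d := by
  obtain ⟨F, hF, hF'⟩ := H
  refine ⟨MvPolynomial.C d' * F, WH_C_mul d' hF, fun N => ?_⟩
  rw [hF', map_mul, map_mul, ev_C]
  ring

lemma Pos.congr (hh : ∀ i j, i < j → j < n → (j ≤ h i ↔ j ≤ h' i)) (H : Pos n h' d) :
    Pos n h d := by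
  obtain ⟨F, hF, hF'⟩ := H
  refine ⟨F, hF, fun N => ?_⟩
  rw [← hF', chromQ_eq, chromQ_eq]
  refine sum_congr rfl fun f _ => ?_
  unfold wt
  congr 1
  refine prod_congr rfl fun i _ => prod_congr rfl fun j _ => ?_
  by_cases hij : i < j
  · have := hh i j hij j.isLt
    simp only [hij, true_and, this]
  · simp only [hij, false_and, if_false]

lemma coefHom_injective (N : ℕ) : Function.Injective (coefHom N) := by
  intro a b hab
  have h1 := MvPolynomial.C_injective _ _ hab
  exact Polynomial.map_injective _ Nat.cast_injective h1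

lemma qfac_ne_zero : ∀ k : ℕ, qfac k ≠ 0
  | 0 => by simp [qfac]
  | k + 1 => by
    intro h1
    have h2 := congrArg (Polynomial.eval 1) h1
    have h3 : ∀ m : ℕ, Polynomial.eval 1 (qfac m) ≠ 0 := by
      intro m
      induction m with
      | zero => simp [qfac]
      | succ m ih =>
        have h4 : Polynomial.eval 1 (qn (Polynomial.X : Polynomial ℕ) (m + 1)) = m + 1 := by
          simp [qn, Polynomial.eval_finsetSum]
        rw [qfac_succ', Polynomial.eval_mul, h4]
        exact mul_ne_zero ih (by omega)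
    exact h3 (k + 1) (by simpa using h2)

lemma qbin_mul' {m k : ℕ} (hk : k ≤ m) : qbin m k * qfac k * qfac (m - k) = qfac m := by
  obtain ⟨s, rfl⟩ : ∃ s, m = k + s := ⟨m - k, by omega⟩
  have : k + s - k = s := by omega
  rw [this]
  exact qbin_mul_qfac _ k s rfl

lemma qbin_ne_zero {m k : ℕ} (hk : k ≤ m) : qbin m k ≠ 0 := by
  intro h1
  have := qbin_mul' hk
  rw [h1, zero_mul, zero_mul] at this
  exact qfac_ne_zero m this.symm

end basic

section rule

open Polynomial

lemma Pos.rule {h : ℕ → ℕ} {n p t u w r : ℕ} (O : Polynomial ℕ) (D : RuleData h n p t u w r)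
    (H : ∀ j, j ≤ r → j ≤ w → r - j ≤ t - w →
      Pos n (hmod h p t (fun _ => u + j - 1)) (qfac t * qfac j * qfac (w - j) * O)) :
    Pos n h (qfac r * qfac (t - r) * qfac w * O) := by
  have H' : ∀ j, ∃ F : FF, WH n F ∧ (j ≤ r → j ≤ w → r - j ≤ t - w → ∀ N,
      chromQ (hmod h p t (fun _ => u + j - 1)) n N
        = coefHom N (qfac t * qfac j * qfac (w - j) * O) * ev N F)
      ∧ (¬ (j ≤ r ∧ j ≤ w ∧ r - j ≤ t - w) → F = 0) := by
    intro j
    by_cases hj : j ≤ r ∧ j ≤ w ∧ r - j ≤ t - w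
    · obtain ⟨F, hF, hF'⟩ := H j hj.1 hj.2.1 hj.2.2
      exact ⟨F, hF, fun _ _ _ => hF', fun h1 => absurd hj h1⟩
    · refine ⟨0, MvPolynomial.isWeightedHomogeneous_zero _ _ _, fun h1 h2 h3 => ?_, fun _ => rfl⟩
      exact absurd ⟨h1, h2, h3⟩ hj
  choose F hF hF' hF0 using H'
  set cf : ℕ → Polynomial ℕ := fun j => qbin (t - w) (r - j) * X ^ ((w - j) * (r - j)) with hcf
  refine ⟨∑ j ∈ range (r + 1), MvPolynomial.C (cf j) * F j, ?_, fun N => ?_⟩
  · exact MvPolynomial.IsWeightedHomogeneous.sum _ _ _ fun j _ => WH_C_mul _ (hF j)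
  · have hne : coefHom N (qbin t r) ≠ 0 := by
      intro h1
      exact qbin_ne_zero D.hr (coefHom_injective N (h1.trans (map_zero _).symm))
    apply mul_left_cancel₀ hne
    rw [chrom_rule D N, map_sum, mul_sum, mul_sum]
    refine sum_congr rfl fun j hj => ?_
    have hj1 : j ≤ r := by
      have := mem_range.mp hj
      omega
    have hco : qbin (t - w) (r - j) * X ^ ((w - j) * (r - j)) * qbin w j = cf j * qbin w j := rfl
    have hev : ev N (MvPolynomial.C (cf j) * F j) = coefHom N (cf j) * ev N (F j) := by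
      rw [map_mul, ev_C]
    rw [hco, hev]
    by_cases hc : j ≤ w ∧ r - j ≤ t - w
    · rw [hF' j hj1 hc.1 hc.2 N]
      have e1 := qbin_mul' hc.1
      have e2 := qbin_mul' D.hr
      have key : cf j * qbin w j * (qfac t * qfac j * qfac (w - j) * O)
          = qbin t r * (qfac r * qfac (t - r) * qfac w * O) * cf j := by
        calc cf j * qbin w j * (qfac t * qfac j * qfac (w - j) * O)
            = cf j * qfac t * O * (qbin w j * qfac j * qfac (w - j)) := by ring
          _ = cf j * qfac t * O * qfac w := by rw [e1]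
          _ = cf j * (qbin t r * qfac r * qfac (t - r)) * O * qfac w := by rw [e2]
          _ = _ := by ring
      rw [← mul_assoc, ← map_mul, key, map_mul, map_mul]
      ring
    · have hz : cf j * qbin w j = 0 := by
        by_cases h1 : j ≤ w
        · have h2 : t - w < r - j := by
            by_contra h3
            exact hc ⟨h1, by omega⟩
          simp [hcf, qbin_eq_zero _ _ h2]
        · simp [qbin_eq_zero w j (by omega)]
      have hz3 : F j = 0 := hF0 j fun h1 => hc h1.2
      rw [hz, hz3]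
      simp

end rule

section base

variable {κ R : Type*} [LinearOrder κ] [Fintype κ] [CommRing R] (q : R) (τ : κ → R)

lemma wt_append (b m : ℕ) (H₁ H : ℕ → ℕ) (a : Fin b → κ) (g : Fin m → κ) :
    wt q τ (unionH b H₁ H) (b + m) (Fin.append a g) = wt q τ H₁ b a * wt q τ H m g := by
  set H' : ℕ → ℕ := unionH b H₁ H with hH'
  set f : Fin (b + m) → κ := Fin.append a g with hf
  have f1 : ∀ i : Fin b, f (Fin.castAdd m i) = a i := fun i => Fin.append_left a g i
  have f2 : ∀ l : Fin m, f (Fin.natAdd b l) = g l := fun l => Fin.append_right a g l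
  let G : Fin (b + m) → Fin (b + m) → R := fun i j =>
    if i < j ∧ (j : ℕ) ≤ H' i then ef q (f i) (f j) else 1
  have h3 : ∀ i : Fin b, H' (Fin.castAdd m i : Fin (b + m)) = min (H₁ i) (b - 1) := by
    intro i
    simp [hH', unionH, i.isLt]
  have h11 : ∀ i i' : Fin b, G (Fin.castAdd m i) (Fin.castAdd m i')
      = if i < i' ∧ (i' : ℕ) ≤ H₁ i then ef q (a i) (a i') else 1 := by
    intro i i'
    have hi := i.isLt
    have hi' := i'.isLt
    simp only [G, f1]
    rw [h3]
    have : (Fin.castAdd m i < Fin.castAdd m i'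
          ∧ ((Fin.castAdd m i' : Fin (b + m)) : ℕ) ≤ min (H₁ i) (b - 1))
        ↔ i < i' ∧ (i' : ℕ) ≤ H₁ i := by
      simp only [Fin.lt_def, Fin.val_castAdd, le_min_iff]
      constructor
      · rintro ⟨h1, h2, _⟩
        exact ⟨h1, h2⟩
      · rintro ⟨h1, h2⟩
        exact ⟨h1, h2, by omega⟩
    simp only [this]
  have h12 : ∀ (i : Fin b) (l : Fin m), G (Fin.castAdd m i) (Fin.natAdd b l) = 1 := by
    intro i l
    have hi := i.isLt
    simp only [G, h3]
    rw [if_neg]
    rintro ⟨_, h2⟩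
    simp only [Fin.val_natAdd, le_min_iff] at h2
    omega
  have h21 : ∀ (l : Fin m) (i : Fin b), G (Fin.natAdd b l) (Fin.castAdd m i) = 1 := by
    intro l i
    have hi := i.isLt
    simp only [G]
    rw [if_neg]
    rintro ⟨h2, _⟩
    simp only [Fin.lt_def, Fin.val_natAdd, Fin.val_castAdd] at h2
    omega
  have h22 : ∀ l l' : Fin m, G (Fin.natAdd b l) (Fin.natAdd b l')
      = if l < l' ∧ (l' : ℕ) ≤ H l then ef q (g l) (g l') else 1 := by
    intro l l'
    simp only [G, f2]
    have h3 : H' (Fin.natAdd b l : Fin (b + m)) = b + H l := by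
      simp [hH', unionH]
    rw [h3]
    have : (Fin.natAdd b l < Fin.natAdd b l' ∧ ((Fin.natAdd b l' : Fin (b + m)) : ℕ) ≤ b + H l)
        ↔ l < l' ∧ (l' : ℕ) ≤ H l := by
      simp only [Fin.lt_def, Fin.val_natAdd]
      constructor
      · rintro ⟨h1, h2⟩
        exact ⟨by omega, by omega⟩
      · rintro ⟨h1, h2⟩
        exact ⟨by omega, by omega⟩
    simp only [this]
  have hE : (∏ i : Fin (b + m), ∏ j : Fin (b + m), G i j)
      = (∏ i : Fin b, ∏ i' : Fin b, if i < i' ∧ (i' : ℕ) ≤ H₁ i then ef q (a i) (a i') else 1)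
        * ∏ l : Fin m, ∏ l' : Fin m,
          if l < l' ∧ (l' : ℕ) ≤ H l then ef q (g l) (g l') else 1 := by
    rw [Fin.prod_univ_add]
    simp only [Fin.prod_univ_add, h11, h12, h21, h22, prod_const_one, mul_one, one_mul]
  have hT : (∏ i : Fin (b + m), τ (f i)) = (∏ i : Fin b, τ (a i)) * ∏ l : Fin m, τ (g l) := by
    rw [Fin.prod_univ_add]
    simp only [f1, f2]
  have hL : wt q τ H' (b + m) f
      = (∏ i : Fin (b + m), ∏ j : Fin (b + m), G i j) * ∏ i : Fin (b + m), τ (f i) := rfl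
  rw [hL, hE, hT]
  unfold wt
  ring

lemma sum_union (b m : ℕ) (H₁ H : ℕ → ℕ) :
    ∑ f : Fin (b + m) → κ, wt q τ (unionH b H₁ H) (b + m) f
      = (∑ a : Fin b → κ, wt q τ H₁ b a) * ∑ g : Fin m → κ, wt q τ H m g := by
  rw [← Equiv.sum_comp (Fin.appendEquiv b m), Fintype.sum_prod_type, sum_mul]
  refine sum_congr rfl fun a _ => ?_
  rw [mul_sum]
  refine sum_congr rfl fun g _ => ?_
  exact wt_append q τ b m H₁ H a g

lemma sum_clique (b : ℕ) :
    ∑ a : Fin b → κ, wt q τ (fun _ => b - 1) b a = qfr q b * esy (univ : Finset κ) τ b := by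
  have h1 : ∀ a : Fin b → κ, wt q τ (fun _ => b - 1) b a = cwt q a * prodS τ (univ.image a) := by
    intro a
    have h2 : wt q τ (fun _ => b - 1) b a = cwt q a * tw τ a := by
      unfold wt cwt tw
      congr 1
      refine prod_congr rfl fun i _ => prod_congr rfl fun j _ => ?_
      have hj := j.isLt
      have : (i < j ∧ (j : ℕ) ≤ b - 1) ↔ i < j :=
        ⟨fun h => h.1, fun h => ⟨h, by omega⟩⟩
      simp only [this]
    rw [h2]
    by_cases ha : Function.Injective a
    · rw [tw_eq_prodS τ ha]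
    · simp [cwt_eq_zero_of_not_injective q a ha]
  rw [sum_congr rfl (fun a _ => h1 a), clique_all]
  rfl

end base

section basepos

lemma psi_C_qfac (N k : ℕ) : coefHom N (qfac k) = qfr (qN N) k := by
  have := psi_qfac (MvPolynomial.C : Polynomial ℤ →+* RN N) k
  rwa [psi_C] at this

/-- The clique on `b` vertices. -/
theorem Pos.clique (b : ℕ) : Pos b (fun _ => b - 1) (qfac b) := by
  refine ⟨Ehat b, WH_Ehat b, fun N => ?_⟩
  rw [chromQ_eq, sum_clique, psi_C_qfac, ev_Ehat]

/-- Disjoint unions. -/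
theorem Pos.union {n₁ n₂ : ℕ} {h₁ h₂ : ℕ → ℕ} {d₁ d₂ : Polynomial ℕ} (H₁ : Pos n₁ h₁ d₁)
    (H₂ : Pos n₂ h₂ d₂) : Pos (n₁ + n₂) (unionH n₁ h₁ h₂) (d₁ * d₂) := by
  obtain ⟨F₁, hF₁, hF₁'⟩ := H₁
  obtain ⟨F₂, hF₂, hF₂'⟩ := H₂
  refine ⟨F₁ * F₂, hF₁.mul hF₂, fun N => ?_⟩
  rw [chromQ_eq, sum_union, ← chromQ_eq, ← chromQ_eq, hF₁', hF₂', map_mul, map_mul]
  ring

end basepos

section mirror

variable {R : Type*} [CommRing R] {n N : ℕ} {h h' : ℕ → ℕ}

lemma ef_rev (q : R) (x y : Fin N) : ef q (Fin.rev x) (Fin.rev y) = ef q y x := by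
  unfold ef
  by_cases h1 : x = y
  · subst h1
    simp
  · have h2 : Fin.rev x ≠ Fin.rev y := fun h3 => h1 (Fin.rev_injective h3)
    have h3 : y ≠ x := fun h4 => h1 h4.symm
    simp only [h2, h3, if_false, Fin.rev_lt_rev]

lemma wt_mirror (q : R) (τ : Fin N → R)
    (hm : ∀ i j, i < j → j < n → (j ≤ h i ↔ n - 1 - i ≤ h' (n - 1 - j)))
    (f : Fin n → Fin N) :
    wt q τ h' n (fun i => Fin.rev (f (Fin.rev i))) = wt q (fun c => τ (Fin.rev c)) h n f := by
  unfold wt
  congr 1
  · have hE : ∀ i j : Fin n,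
        (if Fin.rev i < Fin.rev j ∧ ((Fin.rev j : Fin n) : ℕ) ≤ h' (Fin.rev i : Fin n)
          then ef q (Fin.rev (f (Fin.rev (Fin.rev i)))) (Fin.rev (f (Fin.rev (Fin.rev j)))) else 1)
        = if j < i ∧ (i : ℕ) ≤ h j then ef q (f j) (f i) else 1 := by
      intro i j
      have hi := i.isLt
      have hj := j.isLt
      simp only [Fin.rev_rev, ef_rev, Fin.rev_lt_rev, Fin.val_rev]
      by_cases h1 : j < i
      · have h2 := hm (j : ℕ) (i : ℕ) h1 hi
        have e1 : n - ((j : ℕ) + 1) = n - 1 - (j : ℕ) := by omega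
        have e2 : n - ((i : ℕ) + 1) = n - 1 - (i : ℕ) := by omega
        simp only [h1, true_and, e1, e2, ← h2]
      · simp only [h1, false_and, if_false]
    calc (∏ i : Fin n, ∏ j : Fin n, if i < j ∧ (j : ℕ) ≤ h' i
            then ef q (Fin.rev (f (Fin.rev i))) (Fin.rev (f (Fin.rev j))) else 1)
        = ∏ i : Fin n, ∏ j : Fin n, if Fin.rev i < Fin.rev j
              ∧ ((Fin.rev j : Fin n) : ℕ) ≤ h' (Fin.rev i : Fin n)
            then ef q (Fin.rev (f (Fin.rev (Fin.rev i)))) (Fin.rev (f (Fin.rev (Fin.rev j))))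
            else 1 := by
          rw [← Equiv.prod_comp Fin.revPerm]
          refine prod_congr rfl fun i _ => ?_
          rw [← Equiv.prod_comp Fin.revPerm]
          rfl
      _ = ∏ i : Fin n, ∏ j : Fin n, if j < i ∧ (i : ℕ) ≤ h j then ef q (f j) (f i) else 1 := by
          simp only [hE]
      _ = _ := prod_comm
  · rw [← Equiv.prod_comp Fin.revPerm]
    simp

lemma sum_wt_mirror (q : R) (τ : Fin N → R)
    (hm : ∀ i j, i < j → j < n → (j ≤ h i ↔ n - 1 - i ≤ h' (n - 1 - j))) :
    ∑ f : Fin n → Fin N, wt q τ h' n f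
      = ∑ f : Fin n → Fin N, wt q (fun c => τ (Fin.rev c)) h n f := by
  let E : (Fin n → Fin N) ≃ (Fin n → Fin N) :=
    { toFun := fun f i => Fin.rev (f (Fin.rev i))
      invFun := fun f i => Fin.rev (f (Fin.rev i))
      left_inv := fun f => by funext i; simp
      right_inv := fun f => by funext i; simp }
  rw [← Equiv.sum_comp E]
  refine sum_congr rfl fun f _ => ?_
  exact wt_mirror q τ hm f

lemma map_wt {κ R R' : Type*} [LinearOrder κ] [Fintype κ] [CommRing R] [CommRing R']
    (φ : R →+* R') (q : R) (τ : κ → R) (h : ℕ → ℕ) (n : ℕ) (f : Fin n → κ) :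
    φ (wt q τ h n f) = wt (φ q) (fun c => φ (τ c)) h n f := by
  unfold wt
  rw [map_mul, map_prod, map_prod]
  congr 1
  refine prod_congr rfl fun i _ => ?_
  rw [map_prod]
  refine prod_congr rfl fun j _ => ?_
  split_ifs
  · exact map_ef φ q _ _
  · simp

/-- The reversal of the colours as a ring homomorphism. -/
noncomputable def revHom (N : ℕ) : RN N →+* RN N :=
  (MvPolynomial.rename (R := Polynomial ℤ) (Fin.rev : Fin N → Fin N)).toRingHom

lemma revHom_C (N : ℕ) (p : Polynomial ℤ) : revHom N (MvPolynomial.C p) = MvPolynomial.C p := by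
  simp [revHom]

lemma revHom_X (N : ℕ) (c : Fin N) : revHom N (tN N c) = tN N (Fin.rev c) := by
  simp [revHom, tN]

lemma revHom_ev (N : ℕ) (F : FF) : revHom N (ev N F) = ev N F := by
  induction F using MvPolynomial.induction_on with
  | C a =>
    rw [ev_C]
    exact revHom_C N _
  | add p q hp hq => rw [map_add, map_add, hp, hq]
  | mul_X p k hp =>
    rw [map_mul, map_mul, hp]
    congr 1
    have h1 : ev N (MvPolynomial.X k) = MvPolynomial.esymm (Fin N) (Polynomial ℤ) (k + 1) := by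
      simp [ev]
    rw [h1]
    have := MvPolynomial.esymm_isSymmetric (Fin N) (Polynomial ℤ) (k + 1) Fin.revPerm
    exact this

lemma Pos.mirror {d : Polynomial ℕ}
    (hm : ∀ i j, i < j → j < n → (j ≤ h i ↔ n - 1 - i ≤ h' (n - 1 - j))) (H : Pos n h' d) :
    Pos n h d := by
  obtain ⟨F, hF, hF'⟩ := H
  refine ⟨F, hF, fun N => ?_⟩
  have h1 := sum_wt_mirror (N := N) (qN N) (fun c => tN N (Fin.rev c)) hm
  have h2 : (fun c : Fin N => (fun c => tN N (Fin.rev c)) (Fin.rev c)) = tN N := by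
    funext c
    simp
  rw [h2] at h1
  rw [chromQ_eq, ← h1]
  have h3 : ∀ f : Fin n → Fin N, wt (qN N) (fun c => tN N (Fin.rev c)) h' n f
      = revHom N (wt (qN N) (tN N) h' n f) := by
    intro f
    rw [map_wt, show revHom N (qN N) = qN N from revHom_C N _]
    simp only [revHom_X]
  simp only [h3]
  rw [← map_sum, ← chromQ_eq, hF', map_mul, revHom_ev]
  congr 1
  exact revHom_C N _

end mirror

end Vale.Agent.Lib.P066T
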