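import Vale.Agent.Lib.P066T.Thin

/-!
The divided modular law for the colouring sums of a natural unit interval graph.
-/

set_option linter.unusedSectionVars false

namespace Vale.Agent.Lib.P066T

open Finset Vale.Agent.Lib.P066H

section rule

open Polynomial

variable {κ R : Type*} [LinearOrder κ] [Fintype κ] [CommRing R]
variable {h : ℕ → ℕ} {n p t u w r : ℕ}

lemma Iloc_congr (q : R) (α β : κ → R) (t w : ℕ) (P P' : ℕ → ℕ → Prop)
    [∀ i l, Decidable (P i l)] [∀ i l, Decidable (P' i l)]
    (hP : ∀ i l, i < t → l < w → (P i l ↔ P' i l)) :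
    Iloc q α β t w P = Iloc q α β t w P' := by
  unfold Iloc
  refine sum_congr rfl fun a _ => sum_congr rfl fun b _ => ?_
  congr 1
  refine prod_congr rfl fun i _ => prod_congr rfl fun l _ => ?_
  simp only [hP i l i.isLt l.isLt]

lemma sum_hmod (q : R) (τ : κ → R) (C : Ctx h n p t u w) (ρ : ℕ → ℕ)
    (hρ : ∀ x, p ≤ x → x < p + t → u - 1 ≤ ρ x ∧ ρ x ≤ u + w - 1) :
    ∑ f : Fin n → κ, wt q τ (hmod h p t ρ) n f
      = ∑ g : OutV n p t u w → κ, outW q τ h g
          * Iloc q (alphaW q τ h g) (betaW q τ h g) t w (fun i l => u + l ≤ ρ (p + i)) := by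
  rw [sum_vsplit C.hpt C.huw]
  refine sum_congr rfl fun g _ => ?_
  unfold Iloc
  rw [mul_sum]
  refine sum_congr rfl fun a _ => ?_
  rw [mul_sum]
  refine sum_congr rfl fun b _ => ?_
  rw [wt_vsplit q τ C ρ hρ g a b]

lemma hmod_self (h : ℕ → ℕ) (p t : ℕ) : hmod h p t h = h := by
  funext x
  simp [hmod]

/-- The divided modular law for the colouring sums. -/
theorem thin_rule (θ : Polynomial ℤ →+* R) (τ : κ → R) (D : RuleData h n p t u w r) :
    psi θ (qbin t r) * ∑ f : Fin n → κ, wt (θ X) τ h n f
      = ∑ j ∈ range (r + 1), psi θ (qbin (t - w) (r - j)) * (θ X) ^ ((w - j) * (r - j))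
          * psi θ (qbin w j)
          * ∑ f : Fin n → κ, wt (θ X) τ (hmod h p t (fun _ => u + j - 1)) n f := by
  have C := D.toCtx
  have hu : 1 ≤ u := by
    have := C.ht
    have := C.hpt
    omega
  have hL : ∑ f : Fin n → κ, wt (θ X) τ h n f
      = ∑ g : OutV n p t u w → κ, outW (θ X) τ h g
        * Iloc (θ X) (alphaW (θ X) τ h g) (betaW (θ X) τ h g) t w (fun i _ => t - r ≤ i) := by
    conv_lhs => rw [← hmod_self h p t]
    rw [sum_hmod (θ X) τ C h]
    · refine sum_congr rfl fun g _ => ?_
      congr 1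
      refine Iloc_congr _ _ _ _ _ _ _ fun i l hi hl => ?_
      by_cases h1 : t - r ≤ i
      · have := D.hT2 (p + i) (by omega) (by omega)
        rw [this]
        constructor
        · intro _
          exact h1
        · intro _
          omega
      · have := D.hT1 (p + i) (by omega) (by omega)
        rw [this]
        constructor
        · intro h2
          omega
        · intro h2
          exact absurd h2 h1
    · intro x hx1 hx2
      by_cases h1 : p + t - r ≤ x
      · have := D.hT2 x h1 hx2
        omega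
      · have := D.hT1 x hx1 (by omega)
        omega
  have hR : ∀ j, j ≤ w → ∑ f : Fin n → κ, wt (θ X) τ (hmod h p t (fun _ => u + j - 1)) n f
      = ∑ g : OutV n p t u w → κ, outW (θ X) τ h g
        * Iloc (θ X) (alphaW (θ X) τ h g) (betaW (θ X) τ h g) t w (fun _ x => x < j) := by
    intro j hj
    rw [sum_hmod (θ X) τ C]
    · refine sum_congr rfl fun g _ => ?_
      congr 1
      refine Iloc_congr _ _ _ _ _ _ _ fun i l _ hl => ?_
      omega
    · intro x _ _
      omega
  rw [hL, mul_sum]
  have h1 : ∀ g : OutV n p t u w → κ,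
      psi θ (qbin t r) * (outW (θ X) τ h g
        * Iloc (θ X) (alphaW (θ X) τ h g) (betaW (θ X) τ h g) t w (fun i _ => t - r ≤ i))
      = outW (θ X) τ h g * ∑ j ∈ range (r + 1), psi θ (qbin (t - w) (r - j))
          * (θ X) ^ ((w - j) * (r - j)) * psi θ (qbin w j)
          * Iloc (θ X) (alphaW (θ X) τ h g) (betaW (θ X) τ h g) t w (fun _ x => x < j) := by
    intro g
    rw [← local_rule θ _ _ t w r D.hr D.hw]
    ring
  rw [sum_congr rfl (fun g _ => h1 g), sum_congr rfl (fun g _ => mul_sum _ _ _), sum_comm]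
  refine sum_congr rfl fun j _ => ?_
  by_cases hj : j ≤ w
  · rw [hR j hj, mul_sum]
    refine sum_congr rfl fun g _ => ?_
    ring
  · have : qbin w j = 0 := qbin_eq_zero w j (by omega)
    simp only [this, map_zero, mul_zero, zero_mul, sum_const_zero]

end rule

section pos

open Polynomial

lemma psi_C (N : ℕ) : psi (MvPolynomial.C : Polynomial ℤ →+* RN N) = coefHom N := rfl

/-- The divided modular law for the chromatic quasisymmetric function. -/
theorem chrom_rule {h : ℕ → ℕ} {n p t u w r : ℕ} (D : RuleData h n p t u w r) (N : ℕ) :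
    coefHom N (qbin t r) * chromQ h n N
      = ∑ j ∈ range (r + 1), coefHom N (qbin (t - w) (r - j) * X ^ ((w - j) * (r - j)) * qbin w j)
          * chromQ (hmod h p t (fun _ => u + j - 1)) n N := by
  have := thin_rule (κ := Fin N) (R := RN N) (MvPolynomial.C : Polynomial ℤ →+* RN N) (tN N) D
  rw [psi_C] at this
  have hq : (MvPolynomial.C X : RN N) = qN N := rfl
  rw [hq] at this
  rw [chromQ_eq, this]
  refine sum_congr rfl fun j _ => ?_
  rw [chromQ_eq, map_mul, map_mul, map_pow, coefHom_X]

end pos

end Vale.Agent.Lib.P066T
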