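import Vale.Agent.Lib.P066H.Final
import Vale.Agent.Lib.P066T.Defs

/-!
The colour set identity behind the divided modular law: a q-Vandermonde identity for a colour set
`S` whose `r` chosen elements are attached to a colour set `D`.
-/

set_option linter.unusedSectionVars false

namespace Vale.Agent.Lib.P066T

open Finset Vale.Agent.Lib.P066H

section defs

variable {κ R : Type*} [LinearOrder κ] [CommRing R] (q : R)

/-- Product of the edge factors from the colour set `A` to the colour set `B`. -/
def phi (A B : Finset κ) : R := ∏ a ∈ A, ∏ b ∈ B, ef q a b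

/-- The colour set `S` with `r` chosen elements attached to all of `D`. -/
def Lhs (S D : Finset κ) (r : ℕ) : R :=
  ∑ S₂ ∈ S.powersetCard r, phi q (S \ S₂) S₂ * phi q S₂ D

/-- All of the colour set `S` attached to `j` chosen elements of `D`. -/
def Rhs (S D : Finset κ) (j : ℕ) : R :=
  ∑ D₁ ∈ D.powersetCard j, phi q D₁ (D \ D₁) * phi q S D₁

lemma phi_empty_left (B : Finset κ) : phi q ∅ B = 1 := by simp [phi]

lemma phi_empty_right (A : Finset κ) : phi q A ∅ = 1 := by simp [phi]

lemma phi_insert_left {a : κ} {A : Finset κ} (ha : a ∉ A) (B : Finset κ) :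
    phi q (insert a A) B = (∏ b ∈ B, ef q a b) * phi q A B := by
  simp [phi, prod_insert ha]

lemma phi_insert_right {b : κ} {B : Finset κ} (hb : b ∉ B) (A : Finset κ) :
    phi q A (insert b B) = (∏ a ∈ A, ef q a b) * phi q A B := by
  unfold phi
  rw [← prod_mul_distrib]
  refine prod_congr rfl fun a _ => ?_
  rw [prod_insert hb]

lemma prod_ef_top_left {a : κ} {B : Finset κ} (h : ∀ b ∈ B, b < a) : ∏ b ∈ B, ef q a b = 1 := by
  refine prod_eq_one fun b hb => ?_
  have h1 := h b hb
  simp [ef, h1.ne', not_lt.mpr h1.le]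

lemma prod_ef_top_right {a : κ} {A : Finset κ} (h : ∀ b ∈ A, b < a) :
    ∏ b ∈ A, ef q b a = q ^ A.card := by
  rw [prod_congr rfl (g := fun _ => q)]
  · simp
  · intro b hb
    have h1 := h b hb
    simp [ef, h1.ne, h1]

lemma phi_eq_zero_of_mem {a : κ} {A B : Finset κ} (h1 : a ∈ A) (h2 : a ∈ B) : phi q A B = 0 :=
  prod_eq_zero h1 (prod_eq_zero h2 (by simp [ef]))

lemma sum_powersetCard_insert {a : κ} {S : Finset κ} (ha : a ∉ S) (r : ℕ) (F : Finset κ → R) :
    ∑ T ∈ (insert a S).powersetCard (r + 1), F T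
      = ∑ T ∈ S.powersetCard (r + 1), F T + ∑ T ∈ S.powersetCard r, F (insert a T) := by
  rw [powersetCard_succ_insert ha, sum_union, sum_image]
  · intro x hx y hy hxy
    have h1 : a ∉ x := fun h => ha ((mem_powersetCard.mp hx).1 h)
    have h2 : a ∉ y := fun h => ha ((mem_powersetCard.mp hy).1 h)
    rw [← erase_insert h1, ← erase_insert h2]
    rw [show insert a x = insert a y from hxy]
  · rw [disjoint_left]
    intro x hx hx'
    obtain ⟨y, _, rfl⟩ := mem_image.mp hx'
    exact ha ((mem_powersetCard.mp hx).1 (mem_insert_self _ _))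

/-! Recursions for the largest colour `a`. -/

section rec

variable {a : κ} {S D : Finset κ} (hS : ∀ x ∈ S, x < a) (hD : ∀ x ∈ D, x < a)
include hS hD

lemma not_mem_of_top_S : a ∉ S := fun h => lt_irrefl _ (hS a h)
lemma not_mem_of_top_D : a ∉ D := fun h => lt_irrefl _ (hD a h)

/-- `a` lies in the first colour set only. -/
lemma Lhs_insert_S_succ (r : ℕ) :
    Lhs q (insert a S) D (r + 1)
      = Lhs q S D (r + 1) + q ^ (S.card - r) * Lhs q S D r := by
  have ha := not_mem_of_top_S hS hD
  have hd := not_mem_of_top_D hS hD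
  unfold Lhs
  rw [sum_powersetCard_insert ha, mul_sum]
  congr 1
  · refine sum_congr rfl fun T hT => ?_
    have hT' := (mem_powersetCard.mp hT).1
    have h1 : a ∉ T := fun h => ha (hT' h)
    have h2 : insert a S \ T = insert a (S \ T) := by
      rw [insert_sdiff_of_notMem _ h1]
    rw [h2, phi_insert_left q (fun h => ha (mem_sdiff.mp h).1),
      prod_ef_top_left q (fun x hx => hS x (hT' hx)), one_mul]
  · refine sum_congr rfl fun T hT => ?_
    obtain ⟨hT', hc⟩ := mem_powersetCard.mp hT
    have h1 : a ∉ T := fun h => ha (hT' h)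
    have h2 : insert a S \ insert a T = S \ T := by
      ext x
      simp only [mem_sdiff, mem_insert, not_or]
      constructor
      · rintro ⟨h3 | h3, h4, h5⟩
        · exact absurd h3 h4
        · exact ⟨h3, h5⟩
      · rintro ⟨h3, h5⟩
        exact ⟨Or.inr h3, fun h => ha (h ▸ h3), h5⟩
    rw [h2, phi_insert_right q h1, phi_insert_left q h1,
      prod_ef_top_right q (fun x hx => hS x (mem_sdiff.mp hx).1),
      prod_ef_top_left q hD, one_mul, card_sdiff_of_subset hT', hc]
    ring

lemma Lhs_insert_S_zero : Lhs q (insert a S) D 0 = Lhs q S D 0 := by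
  simp [Lhs, phi_empty_left, phi_empty_right]

lemma Rhs_insert_S (j : ℕ) : Rhs q (insert a S) D j = Rhs q S D j := by
  have ha := not_mem_of_top_S hS hD
  unfold Rhs
  refine sum_congr rfl fun T hT => ?_
  have hT' := (mem_powersetCard.mp hT).1
  rw [phi_insert_left q ha, prod_ef_top_left q (fun x hx => hD x (hT' hx)), one_mul]

/-- `a` lies in the second colour set only. -/
lemma Lhs_insert_D (r : ℕ) : Lhs q S (insert a D) r = q ^ r * Lhs q S D r := by
  have hd := not_mem_of_top_D hS hD
  unfold Lhs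
  rw [mul_sum]
  refine sum_congr rfl fun T hT => ?_
  obtain ⟨hT', hc⟩ := mem_powersetCard.mp hT
  rw [phi_insert_right q hd, prod_ef_top_right q (fun x hx => hS x (hT' hx)), hc]
  ring

lemma Rhs_insert_D_zero : Rhs q S (insert a D) 0 = Rhs q S D 0 := by
  simp [Rhs, phi_empty_left, phi_empty_right]

lemma Rhs_insert_D_succ (j : ℕ) :
    Rhs q S (insert a D) (j + 1)
      = q ^ (j + 1) * Rhs q S D (j + 1) + q ^ S.card * Rhs q S D j := by
  have hd := not_mem_of_top_D hS hD
  unfold Rhs
  rw [sum_powersetCard_insert hd, mul_sum, mul_sum]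
  congr 1
  · refine sum_congr rfl fun T hT => ?_
    obtain ⟨hT', hc⟩ := mem_powersetCard.mp hT
    have h1 : a ∉ T := fun h => hd (hT' h)
    have h2 : insert a D \ T = insert a (D \ T) := by
      rw [insert_sdiff_of_notMem _ h1]
    rw [h2, phi_insert_right q (fun h => hd (mem_sdiff.mp h).1),
      prod_ef_top_right q (fun x hx => hD x (hT' hx)), hc]
    ring
  · refine sum_congr rfl fun T hT => ?_
    obtain ⟨hT', hc⟩ := mem_powersetCard.mp hT
    have h1 : a ∉ T := fun h => hd (hT' h)
    have h2 : insert a D \ insert a T = D \ T := by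
      ext x
      simp only [mem_sdiff, mem_insert, not_or]
      constructor
      · rintro ⟨h3 | h3, h4, h5⟩
        · exact absurd h3 h4
        · exact ⟨h3, h5⟩
      · rintro ⟨h3, h5⟩
        exact ⟨Or.inr h3, fun h => hd (h ▸ h3), h5⟩
    rw [h2, phi_insert_left q h1, phi_insert_right q h1,
      prod_ef_top_left q (fun x hx => hD x (mem_sdiff.mp hx).1),
      prod_ef_top_right q hS, one_mul]
    ring

/-- `a` lies in both colour sets. -/
lemma Lhs_insert_both (r : ℕ) :
    Lhs q (insert a S) (insert a D) r = q ^ r * Lhs q S D r := by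
  have ha := not_mem_of_top_S hS hD
  have hd := not_mem_of_top_D hS hD
  unfold Lhs
  cases r with
  | zero => simp [phi_empty_left, phi_empty_right]
  | succ r =>
    rw [sum_powersetCard_insert ha]
    have h0 : ∑ T ∈ S.powersetCard r, phi q (insert a S \ insert a T) (insert a T)
        * phi q (insert a T) (insert a D) = 0 := by
      refine sum_eq_zero fun T _ => ?_
      rw [phi_eq_zero_of_mem q (mem_insert_self a T) (mem_insert_self a D), mul_zero]
    rw [h0, add_zero, mul_sum]
    refine sum_congr rfl fun T hT => ?_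
    obtain ⟨hT', hc⟩ := mem_powersetCard.mp hT
    have h1 : a ∉ T := fun h => ha (hT' h)
    have h2 : insert a S \ T = insert a (S \ T) := by
      rw [insert_sdiff_of_notMem _ h1]
    rw [h2, phi_insert_left q (fun h => ha (mem_sdiff.mp h).1),
      prod_ef_top_left q (fun x hx => hS x (hT' hx)), one_mul,
      phi_insert_right q hd, prod_ef_top_right q (fun x hx => hS x (hT' hx)), hc]
    ring

lemma Rhs_insert_both (j : ℕ) :
    Rhs q (insert a S) (insert a D) j = q ^ j * Rhs q S D j := by
  have ha := not_mem_of_top_S hS hD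
  have hd := not_mem_of_top_D hS hD
  unfold Rhs
  cases j with
  | zero => simp [phi_empty_left, phi_empty_right]
  | succ j =>
    rw [sum_powersetCard_insert hd]
    have h0 : ∑ T ∈ D.powersetCard j, phi q (insert a T) (insert a D \ insert a T)
        * phi q (insert a S) (insert a T) = 0 := by
      refine sum_eq_zero fun T _ => ?_
      rw [phi_eq_zero_of_mem q (mem_insert_self a S) (mem_insert_self a T), mul_zero]
    rw [h0, add_zero, mul_sum]
    refine sum_congr rfl fun T hT => ?_
    obtain ⟨hT', hc⟩ := mem_powersetCard.mp hT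
    have h1 : a ∉ T := fun h => hd (hT' h)
    have h2 : insert a D \ T = insert a (D \ T) := by
      rw [insert_sdiff_of_notMem _ h1]
    rw [h2, phi_insert_right q (fun h => hd (mem_sdiff.mp h).1),
      prod_ef_top_right q (fun x hx => hD x (hT' hx)), hc,
      phi_insert_left q ha, prod_ef_top_left q (fun x hx => hD x (hT' hx)), one_mul]
    ring

end rec

end defs

section field

variable {F : Type*} [Field F] (q : F)

/-- Generalized q-binomial coefficient with an integer upper index. -/
noncomputable def gbin (n : ℤ) (k : ℕ) : F :=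
  ∏ i ∈ range k, (q ^ (n - i) - 1) / (q ^ (i + 1) - 1)

@[simp] lemma gbin_zero (n : ℤ) : gbin q n 0 = 1 := by simp [gbin]

lemma gbin_pascal (hq : q ≠ 0) (hr : ∀ k : ℕ, q ^ (k + 1) ≠ 1) (n : ℤ) (k : ℕ) :
    gbin q n (k + 1) = gbin q (n - 1) (k + 1) + q ^ (n - k - 1) * gbin q (n - 1) k := by
  unfold gbin
  have hD : ∀ i : ℕ, q ^ (i + 1) - 1 ≠ 0 := fun i => sub_ne_zero.mpr (hr i)
  -- numerators and denominators
  have h1 : ∏ i ∈ range (k + 1), (q ^ (n - i) - 1) / (q ^ (i + 1) - 1)
      = (∏ i ∈ range (k + 1), (q ^ (n - i) - 1)) / ∏ i ∈ range (k + 1), (q ^ (i + 1) - 1) :=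
    prod_div_distrib _ _
  have h2 : ∏ i ∈ range (k + 1), (q ^ (n - 1 - i) - 1) / (q ^ (i + 1) - 1)
      = (∏ i ∈ range (k + 1), (q ^ (n - 1 - i) - 1)) / ∏ i ∈ range (k + 1), (q ^ (i + 1) - 1) :=
    prod_div_distrib _ _
  have h3 : ∏ i ∈ range k, (q ^ (n - 1 - i) - 1) / (q ^ (i + 1) - 1)
      = (∏ i ∈ range k, (q ^ (n - 1 - i) - 1)) / ∏ i ∈ range k, (q ^ (i + 1) - 1) :=
    prod_div_distrib _ _
  rw [h1, h2, h3]
  set P := ∏ i ∈ range k, (q ^ (n - 1 - i) - 1) with hP
  set D := ∏ i ∈ range k, (q ^ (i + 1) - 1) with hDD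
  have hD0 : D ≠ 0 := prod_ne_zero_iff.mpr fun i _ => hD i
  have h4 : ∏ i ∈ range (k + 1), (q ^ (n - i) - 1) = P * (q ^ n - 1) := by
    rw [prod_range_succ']
    congr 1
    · refine prod_congr rfl fun i _ => ?_
      congr 2
      push_cast
      ring
    · simp
  have h5 : ∏ i ∈ range (k + 1), (q ^ (n - 1 - i) - 1) = P * (q ^ (n - k - 1) - 1) := by
    rw [prod_range_succ]
    congr 3
    ring
  have h6 : ∏ i ∈ range (k + 1), (q ^ (i + 1) - 1) = D * (q ^ (k + 1) - 1) := prod_range_succ _ _
  rw [h4, h5, h6]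
  have h7 : q ^ n = q ^ (n - k - 1) * q ^ (k + 1) := by
    rw [← zpow_natCast, ← zpow_add₀ hq]
    congr 1
    push_cast
    ring
  rw [h7]
  have hk := hD k
  field_simp
  ring

lemma gbin_nat_succ_zero (k : ℕ) : gbin q (0 : ℤ) (k + 1) = 0 := by
  unfold gbin
  refine prod_eq_zero (mem_range.mpr (Nat.succ_pos k)) ?_
  simp

variable {κ : Type*} [LinearOrder κ]

/-- Coefficients of the colour set identity over a field. -/
noncomputable def gc (t w r j : ℕ) : F :=
  gbin q ((t : ℤ) - w) (r - j) * q ^ (((w : ℤ) - j) * ((r : ℤ) - j))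

lemma gc_self (t w r : ℕ) : gc q t w r r = 1 := by
  simp [gc]

lemma gc_S (hq : q ≠ 0) (hr : ∀ k : ℕ, q ^ (k + 1) ≠ 1) (t w r j : ℕ) (hj : j ≤ r) :
    gc q (t + 1) w (r + 1) j
      = gc q t w (r + 1) j + q ^ ((t : ℤ) - r) * gc q t w r j := by
  unfold gc
  obtain ⟨k, rfl⟩ := Nat.exists_eq_add_of_le hj
  have e1 : j + k + 1 - j = k + 1 := by omega
  have e2 : j + k - j = k := by omega
  rw [e1, e2]
  have h := gbin_pascal q hq hr (((t + 1 : ℕ) : ℤ) - w) k
  have e3 : (((t + 1 : ℕ) : ℤ) - w) - 1 = (t : ℤ) - w := by push_cast; ring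
  rw [e3] at h
  rw [h, add_mul, add_right_inj, mul_assoc, mul_left_comm]
  have : q ^ ((((t + 1 : ℕ) : ℤ) - w) - k - 1) * q ^ (((w : ℤ) - j) * (((j + k + 1 : ℕ) : ℤ) - j))
      = q ^ ((t : ℤ) - (j + k : ℕ)) * q ^ (((w : ℤ) - j) * (((j + k : ℕ) : ℤ) - j)) := by
    rw [← zpow_add₀ hq, ← zpow_add₀ hq]
    congr 1
    push_cast
    ring
  rw [← mul_assoc, ← mul_assoc, mul_comm (gbin q _ _), mul_assoc, mul_assoc, mul_comm (gbin q _ _)]
  rw [← mul_assoc, this]
  ring

lemma gc_D (hq : q ≠ 0) (hr : ∀ k : ℕ, q ^ (k + 1) ≠ 1) (t w r j : ℕ) (hj : j < r) :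
    gc q t (w + 1) r j * q ^ j + gc q t (w + 1) r (j + 1) * q ^ t = q ^ r * gc q t w r j := by
  unfold gc
  obtain ⟨k, rfl⟩ : ∃ k, r = j + k + 1 := ⟨r - j - 1, by omega⟩
  have e1 : j + k + 1 - j = k + 1 := by omega
  have e2 : j + k + 1 - (j + 1) = k := by omega
  rw [e1, e2]
  have h := gbin_pascal q hq hr ((t : ℤ) - w) k
  have e3 : ((t : ℤ) - w) - 1 = (t : ℤ) - (w + 1 : ℕ) := by push_cast; ring
  rw [e3] at h
  have A1 : q ^ ((((w + 1 : ℕ) : ℤ) - j) * (((j + k + 1 : ℕ) : ℤ) - j)) * q ^ j
      = q ^ (j + k + 1) * q ^ (((w : ℤ) - j) * (((j + k + 1 : ℕ) : ℤ) - j)) := by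
    rw [← zpow_natCast, ← zpow_natCast, ← zpow_add₀ hq, ← zpow_add₀ hq]
    congr 1
    push_cast
    ring
  have A2 : q ^ ((((w + 1 : ℕ) : ℤ) - ((j + 1 : ℕ) : ℤ)) * (((j + k + 1 : ℕ) : ℤ) - ((j + 1 : ℕ) : ℤ)))
      * q ^ t
      = q ^ (j + k + 1) * (q ^ ((t : ℤ) - w - k - 1)
        * q ^ (((w : ℤ) - j) * (((j + k + 1 : ℕ) : ℤ) - j))) := by
    rw [← zpow_natCast, ← zpow_natCast, ← zpow_add₀ hq, ← zpow_add₀ hq, ← zpow_add₀ hq]
    congr 1
    push_cast
    ring
  rw [h]
  linear_combination (gbin q ((t : ℤ) - (w + 1 : ℕ)) (k + 1)) * A1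
    + (gbin q ((t : ℤ) - (w + 1 : ℕ)) k) * A2

lemma gc_both (hq : q ≠ 0) (t w r j : ℕ) (hj : j ≤ r) :
    q ^ r * gc q t w r j = gc q (t + 1) (w + 1) r j * q ^ j := by
  unfold gc
  obtain ⟨k, rfl⟩ := Nat.exists_eq_add_of_le hj
  have e3 : ((t + 1 : ℕ) : ℤ) - ((w + 1 : ℕ) : ℤ) = (t : ℤ) - w := by push_cast; ring
  rw [e3]
  have A1 : q ^ (j + k) * q ^ (((w : ℤ) - j) * (((j + k : ℕ) : ℤ) - j))
      = q ^ ((((w + 1 : ℕ) : ℤ) - j) * (((j + k : ℕ) : ℤ) - j)) * q ^ j := by
    rw [← zpow_natCast, ← zpow_natCast, ← zpow_add₀ hq, ← zpow_add₀ hq]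
    congr 1
    push_cast
    ring
  linear_combination (gbin q ((t : ℤ) - w) (j + k - j)) * A1

/-- The colour set identity over a field, for integer upper index. -/
theorem star_field (hq : q ≠ 0) (hr : ∀ k : ℕ, q ^ (k + 1) ≠ 1) (U : Finset κ) :
    ∀ S D : Finset κ, S ∪ D = U → ∀ r : ℕ, Lhs q S D r
      = ∑ j ∈ range (r + 1), gc q S.card D.card r j * Rhs q S D j := by
  induction U using Finset.induction_on_max with
  | empty =>
    intro S D h r
    have hS : S = ∅ := by
      have := union_eq_empty.mp h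
      exact this.1
    have hD : D = ∅ := (union_eq_empty.mp h).2
    subst hS hD
    cases r with
    | zero => simp [Lhs, Rhs, gc, phi_empty_left, phi_empty_right]
    | succ r =>
      have h1 : Lhs q (∅ : Finset κ) ∅ (r + 1) = 0 := by
        unfold Lhs
        rw [powersetCard_eq_empty.mpr (by simp), sum_empty]
      rw [h1, sum_range_succ']
      simp [Rhs, gc, phi_empty_left, phi_empty_right, gbin_nat_succ_zero]
  | insert a U hU ih =>
    intro S D h r
    have hS' : ∀ x ∈ S.erase a, x < a := fun x hx => by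
      have hm := (mem_erase.mp hx)
      have : x ∈ insert a U := h ▸ mem_union_left _ hm.2
      rcases mem_insert.mp this with h1 | h1
      · exact absurd h1 hm.1
      · exact hU x h1
    have hD' : ∀ x ∈ D.erase a, x < a := fun x hx => by
      have hm := (mem_erase.mp hx)
      have : x ∈ insert a U := h ▸ mem_union_right _ hm.2
      rcases mem_insert.mp this with h1 | h1
      · exact absurd h1 hm.1
      · exact hU x h1
    have hU' : S.erase a ∪ D.erase a = U := by
      ext x
      simp only [mem_union, mem_erase]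
      constructor
      · rintro (⟨h1, h2⟩ | ⟨h1, h2⟩)
        · have : x ∈ insert a U := h ▸ mem_union_left _ h2
          exact (mem_insert.mp this).resolve_left h1
        · have : x ∈ insert a U := h ▸ mem_union_right _ h2
          exact (mem_insert.mp this).resolve_left h1
      · intro hx
        have h1 : x ≠ a := (hU x hx).ne
        have : x ∈ S ∪ D := h ▸ mem_insert_of_mem hx
        rcases mem_union.mp this with h2 | h2
        · exact Or.inl ⟨h1, h2⟩
        · exact Or.inr ⟨h1, h2⟩
    have ha : a ∈ S ∪ D := h ▸ mem_insert_self a U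
    have IH := ih (S.erase a) (D.erase a) hU'
    by_cases has : a ∈ S <;> by_cases had : a ∈ D
    · -- both
      obtain ⟨S', hS1, rfl⟩ : ∃ S', a ∉ S' ∧ S = insert a S' :=
        ⟨S.erase a, notMem_erase _ _, (insert_erase has).symm⟩
      obtain ⟨D', hD1, rfl⟩ : ∃ D', a ∉ D' ∧ D = insert a D' :=
        ⟨D.erase a, notMem_erase _ _, (insert_erase had).symm⟩
      simp only [erase_insert hS1, erase_insert hD1] at IH hS' hD'
      rw [Lhs_insert_both q hS' hD', IH r, mul_sum, card_insert_of_notMem hS1,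
        card_insert_of_notMem hD1]
      refine sum_congr rfl fun j hj => ?_
      rw [Rhs_insert_both q hS' hD']
      have := gc_both q hq S'.card D'.card r j (Nat.lt_succ_iff.mp (mem_range.mp hj))
      linear_combination (Rhs q S' D' j) * this
    · -- only in S
      obtain ⟨S', hS1, rfl⟩ : ∃ S', a ∉ S' ∧ S = insert a S' :=
        ⟨S.erase a, notMem_erase _ _, (insert_erase has).symm⟩
      simp only [erase_insert hS1, erase_eq_of_notMem had] at IH hS' hD'
      rw [card_insert_of_notMem hS1]
      cases r with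
      | zero =>
        rw [Lhs_insert_S_zero q hS' hD', IH 0]
        simp [gc, Rhs_insert_S q hS' hD']
      | succ r =>
        have e : ∀ j ∈ range (r + 1), gc q (S'.card + 1) D.card (r + 1) j * Rhs q (insert a S') D j
            = gc q S'.card D.card (r + 1) j * Rhs q S' D j
              + q ^ ((S'.card : ℤ) - r) * (gc q S'.card D.card r j * Rhs q S' D j) := by
          intro j hj
          have hj' := Nat.lt_succ_iff.mp (mem_range.mp hj)
          rw [Rhs_insert_S q hS' hD', gc_S q hq hr _ _ _ _ hj']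
          ring
        rw [Lhs_insert_S_succ q hS' hD', sum_range_succ _ (r + 1), sum_congr rfl e, sum_add_distrib,
          ← mul_sum, ← IH r, IH (r + 1), sum_range_succ _ (r + 1), gc_self, gc_self,
          Rhs_insert_S q hS' hD']
        by_cases hr' : r ≤ S'.card
        · have : q ^ ((S'.card : ℤ) - r) = q ^ (S'.card - r) := by
            rw [← zpow_natCast]
            congr 1
            omega
          rw [this]
          ring
        · have : Lhs q S' D r = 0 := by
            unfold Lhs
            rw [powersetCard_eq_empty.mpr (by omega), sum_empty]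
          rw [this]
          ring
    · -- only in D
      obtain ⟨D', hD1, rfl⟩ : ∃ D', a ∉ D' ∧ D = insert a D' :=
        ⟨D.erase a, notMem_erase _ _, (insert_erase had).symm⟩
      simp only [erase_insert hD1, erase_eq_of_notMem has] at IH hS' hD'
      rw [Lhs_insert_D q hS' hD', IH r, card_insert_of_notMem hD1]
      set t := S.card
      set w := D'.card
      have step1 : ∑ j ∈ range (r + 1), gc q t (w + 1) r j * Rhs q S (insert a D') j
          = ∑ j ∈ range (r + 1), gc q t (w + 1) r j * q ^ j * Rhs q S D' j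
            + ∑ j ∈ range r, gc q t (w + 1) r (j + 1) * q ^ t * Rhs q S D' j := by
        rw [sum_range_succ', sum_range_succ' (fun j => gc q t (w + 1) r j * q ^ j * Rhs q S D' j),
          Rhs_insert_D_zero q hS' hD']
        have : ∀ j ∈ range r, gc q t (w + 1) r (j + 1) * Rhs q S (insert a D') (j + 1)
            = gc q t (w + 1) r (j + 1) * q ^ (j + 1) * Rhs q S D' (j + 1)
              + gc q t (w + 1) r (j + 1) * q ^ t * Rhs q S D' j := by
          intro j _
          rw [Rhs_insert_D_succ q hS' hD']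
          ring
        rw [sum_congr rfl this, sum_add_distrib]
        simp only [pow_zero, mul_one]
        ring
      rw [step1, sum_range_succ, sum_range_succ _ r, gc_self, gc_self, mul_add, mul_sum]
      have step2 : ∑ j ∈ range r, gc q t (w + 1) r j * q ^ j * Rhs q S D' j
            + ∑ j ∈ range r, gc q t (w + 1) r (j + 1) * q ^ t * Rhs q S D' j
          = ∑ j ∈ range r, q ^ r * (gc q t w r j * Rhs q S D' j) := by
        rw [← sum_add_distrib]
        refine sum_congr rfl fun j hj => ?_
        have := gc_D q hq hr t w r j (mem_range.mp hj)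
        linear_combination (Rhs q S D' j) * this
      linear_combination (-1 : F) * step2
    · exact absurd ha (by simp [has, had])

end field

section qbin

open Polynomial

lemma qfac_succ' (n : ℕ) : qfac (n + 1) = qfac n * qn (X : Polynomial ℕ) (n + 1) := rfl

@[simp] lemma qbin_zero (n : ℕ) : qbin n 0 = 1 := by cases n <;> simp [qbin]

lemma qbin_eq_zero : ∀ n k : ℕ, n < k → qbin n k = 0
  | 0, 0, h => absurd h (lt_irrefl _)
  | n + 1, 0, h => absurd h (by omega)
  | 0, k + 1, _ => by simp [qbin]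
  | n + 1, k + 1, h => by
    have h1 : n < k + 1 := by omega
    have h2 : n < k := by omega
    simp [qbin, qbin_eq_zero n (k + 1) h1, qbin_eq_zero n k h2]

lemma qbin_self : ∀ n : ℕ, qbin n n = 1
  | 0 => by simp
  | n + 1 => by
    simp [qbin, qbin_eq_zero n (n + 1) (by omega), qbin_self n]

lemma qn_add_semi (q : Polynomial ℕ) (x y : ℕ) : qn q (x + y) = qn q x + q ^ x * qn q y := by
  induction y with
  | zero => simp
  | succ y ih =>
    rw [← add_assoc, qn_succ, ih, qn_succ]
    ring

/-- `[a+b choose a]_q [a]_q! [b]_q! = [a+b]_q!`. -/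
lemma qbin_mul_qfac : ∀ (m a b : ℕ), a + b = m → qbin (a + b) a * qfac a * qfac b = qfac (a + b)
  | 0, a, b, h => by
    obtain rfl : a = 0 := by omega
    obtain rfl : b = 0 := by omega
    simp [qfac]
  | m + 1, 0, b, h => by simp [qfac]
  | m + 1, a + 1, 0, h => by
    simp [qbin_self, qfac]
  | m + 1, a + 1, b + 1, h => by
    have h1 := qbin_mul_qfac m a (b + 1) (by omega)
    have h2 := qbin_mul_qfac m (a + 1) b (by omega)
    have e1 : a + 1 + (b + 1) = a + b + 1 + 1 := by omega
    have e2 : a + (b + 1) = a + b + 1 := by omega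
    have e3 : a + 1 + b = a + b + 1 := by omega
    rw [e2] at h1
    rw [e3] at h2
    have e4 : a + b + 1 - a = b + 1 := by omega
    rw [e1]
    simp only [qbin, e4]
    have q1 : qn (X : Polynomial ℕ) (a + b + 1 + 1) = qn X (b + 1) + X ^ (b + 1) * qn X (a + 1) := by
      have : a + b + 1 + 1 = (b + 1) + (a + 1) := by omega
      rw [this, qn_add_semi]
    have f1 : qfac (a + 1) = qfac a * qn X (a + 1) := rfl
    have f2 : qfac (b + 1) = qfac b * qn X (b + 1) := rfl
    have f3 : qfac (a + b + 1 + 1) = qfac (a + b + 1) * qn X (a + b + 1 + 1) := rfl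
    rw [f3, q1, ← h1]
    calc (qbin (a + b + 1) (a + 1) + X ^ (b + 1) * qbin (a + b + 1) a) * qfac (a + 1) * qfac (b + 1)
        = (qbin (a + b + 1) (a + 1) * qfac (a + 1) * qfac b) * qn X (b + 1)
          + X ^ (b + 1) * qbin (a + b + 1) a * (qfac a * qn X (a + 1)) * qfac (b + 1) := by
          rw [f2, ← f1]; ring
      _ = _ := by rw [h2, ← h1]; ring

end qbin

section pull

open Polynomial

variable {κ : Type*} [LinearOrder κ]

/-- The fraction field of `ℤ[q]`. -/
abbrev FQ := FractionRing (Polynomial ℤ)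

/-- The generator `q` in the fraction field. -/
noncomputable def qF : FQ := algebraMap (Polynomial ℤ) FQ X

lemma inj_FQ : Function.Injective (algebraMap (Polynomial ℤ) FQ) :=
  IsFractionRing.injective _ _

lemma qF_ne_zero : qF ≠ 0 := by
  intro h
  have h2 : algebraMap (Polynomial ℤ) FQ X = algebraMap (Polynomial ℤ) FQ 0 := by
    rw [map_zero]
    exact h
  exact X_ne_zero (inj_FQ h2)

lemma qF_pow_ne_one (k : ℕ) : qF ^ (k + 1) ≠ 1 := by
  intro h
  have h1 : algebraMap (Polynomial ℤ) FQ (X ^ (k + 1)) = algebraMap (Polynomial ℤ) FQ 1 := by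
    rw [map_pow, map_one]
    exact h
  have h2 := inj_FQ h1
  have h3 := congrArg Polynomial.natDegree h2
  simp at h3

/-- Image of the natural number polynomials in the fraction field. -/
noncomputable def toF : Polynomial ℕ →+* FQ :=
  (algebraMap (Polynomial ℤ) FQ).comp (Polynomial.mapRingHom (Nat.castRingHom ℤ))

lemma toF_X : toF X = qF := by simp [toF, qF]

lemma toF_qbin : ∀ (n k : ℕ), toF (qbin n k) = gbin qF (n : ℤ) k
  | n, 0 => by simp
  | 0, k + 1 => by
    have := gbin_nat_succ_zero qF k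
    simpa [qbin] using this.symm
  | n + 1, k + 1 => by
    have h := gbin_pascal qF qF_ne_zero qF_pow_ne_one ((n + 1 : ℕ) : ℤ) k
    have e : ((n + 1 : ℕ) : ℤ) - 1 = n := by push_cast; ring
    rw [e] at h
    rw [h]
    simp only [qbin, map_add, map_mul, map_pow, toF_X, toF_qbin n (k + 1), toF_qbin n k]
    congr 1
    by_cases hk : k ≤ n
    · have : qF ^ (n - k) = qF ^ (((n + 1 : ℕ) : ℤ) - k - 1) := by
        rw [← zpow_natCast]
        congr 1
        push_cast
        omega
      rw [this]
    · have h0 : gbin qF (n : ℤ) k = 0 := by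
        rw [← toF_qbin n k, qbin_eq_zero n k (by omega), map_zero]
      simp [h0]

lemma map_ef {R R' : Type*} [CommRing R] [CommRing R'] (θ : R →+* R') (q : R) (x y : κ) :
    θ (ef q x y) = ef (θ q) x y := by
  unfold ef
  split_ifs <;> simp

lemma map_phi {R R' : Type*} [CommRing R] [CommRing R'] (θ : R →+* R') (q : R)
    (A B : Finset κ) : θ (phi q A B) = phi (θ q) A B := by
  simp [phi, map_prod, map_ef]

lemma map_Lhs {R R' : Type*} [CommRing R] [CommRing R'] (θ : R →+* R') (q : R)
    (S D : Finset κ) (r : ℕ) : θ (Lhs q S D r) = Lhs (θ q) S D r := by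
  simp [Lhs, map_sum, map_mul, map_phi]

lemma map_Rhs {R R' : Type*} [CommRing R] [CommRing R'] (θ : R →+* R') (q : R)
    (S D : Finset κ) (r : ℕ) : θ (Rhs q S D r) = Rhs (θ q) S D r := by
  simp [Rhs, map_sum, map_mul, map_phi]

lemma Rhs_eq_zero_of_lt {R : Type*} [CommRing R] (q : R) (S D : Finset κ) {j : ℕ}
    (h : D.card < j) : Rhs q S D j = 0 := by
  unfold Rhs
  rw [powersetCard_eq_empty.mpr h, sum_empty]

/-- The colour set identity in `ℤ[q]`, for `|D| ≤ |S|`. -/
theorem star_int (S D : Finset κ) (hc : D.card ≤ S.card) (r : ℕ) :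
    Lhs (X : Polynomial ℤ) S D r = ∑ j ∈ range (r + 1),
      (qbin (S.card - D.card) (r - j)).map (Nat.castRingHom ℤ)
        * X ^ ((D.card - j) * (r - j)) * Rhs (X : Polynomial ℤ) S D j := by
  apply inj_FQ
  rw [map_Lhs, star_field (q := algebraMap (Polynomial ℤ) FQ X) qF_ne_zero qF_pow_ne_one _ S D rfl r,
    map_sum]
  refine sum_congr rfl fun j hj => ?_
  have hj' := Nat.lt_succ_iff.mp (mem_range.mp hj)
  rw [map_mul, map_mul, map_Rhs]
  by_cases hjD : D.card < j
  · rw [Rhs_eq_zero_of_lt _ _ _ hjD]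
    simp
  · congr 1
    unfold gc
    rw [map_pow]
    have h1 : algebraMap (Polynomial ℤ) FQ ((qbin (S.card - D.card) (r - j)).map (Nat.castRingHom ℤ))
        = gbin qF ((S.card : ℤ) - D.card) (r - j) := by
      have := toF_qbin (S.card - D.card) (r - j)
      have e : ((S.card - D.card : ℕ) : ℤ) = (S.card : ℤ) - D.card := by omega
      rw [e] at this
      rw [← this]
      rfl
    have h2 : (algebraMap (Polynomial ℤ) FQ X) ^ ((D.card - j) * (r - j))
        = (algebraMap (Polynomial ℤ) FQ X) ^ (((D.card : ℤ) - j) * ((r : ℤ) - j)) := by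
      rw [← zpow_natCast]
      congr 1
      have e1 : ((D.card - j : ℕ) : ℤ) = (D.card : ℤ) - j := by omega
      have e2 : ((r - j : ℕ) : ℤ) = (r : ℤ) - j := by omega
      push_cast [e1, e2]
      rfl
    rw [h1, h2]
    rfl

/-- The colour set identity in any commutative ring receiving `ℤ[q]`. -/
theorem star_ring {R : Type*} [CommRing R] (θ : Polynomial ℤ →+* R)
    (S D : Finset κ) (hc : D.card ≤ S.card) (r : ℕ) :
    Lhs (θ X) S D r = ∑ j ∈ range (r + 1),
      θ ((qbin (S.card - D.card) (r - j)).map (Nat.castRingHom ℤ))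
        * (θ X) ^ ((D.card - j) * (r - j)) * Rhs (θ X) S D j := by
  rw [← map_Lhs, star_int S D hc r, map_sum]
  refine sum_congr rfl fun j _ => ?_
  rw [map_mul, map_mul, map_pow, map_Rhs]

end pull

end Vale.Agent.Lib.P066T
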