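import Vale.Agent.Lib.P066T.Local

/-!
From the colourings of the whole graph to the local sum on the two cliques `T` and `V`.
-/

set_option linter.unusedSectionVars false

namespace Vale.Agent.Lib.P066T

open Finset Vale.Agent.Lib.P066H

section split

variable {n p t u w : ℕ}

/-- The vertices outside the two intervals. -/
abbrev OutV (n p t u w : ℕ) := {x : Fin n // ¬ (p ≤ (x : ℕ) ∧ (x : ℕ) < p + t) ∧ ¬ (u ≤ (x : ℕ) ∧ (x : ℕ) < u + w)}

/-- The map from the two intervals and the rest to the vertex set. -/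
def vMap (hpt : p + t ≤ u) (huw : u + w ≤ n) : Fin t ⊕ (Fin w ⊕ OutV n p t u w) → Fin n :=
  Sum.elim (fun i => ⟨p + i, by have := i.isLt; omega⟩)
    (Sum.elim (fun l => ⟨u + l, by have := l.isLt; omega⟩) (fun y => y.1))

lemma vMap_bij (hpt : p + t ≤ u) (huw : u + w ≤ n) : Function.Bijective (vMap hpt huw) := by
  constructor
  · rintro (i | l | y) (i' | l' | y') h <;> simp only [vMap, Sum.elim_inl, Sum.elim_inr, Fin.ext_iff] at h
    · congr 1
      apply Fin.ext
      omega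
    · have := i.isLt
      have := l'.isLt
      omega
    · have := i.isLt
      have hy := y'.2
      rw [← h] at hy
      omega
    · have := i'.isLt
      have := l.isLt
      omega
    · congr 2
      apply Fin.ext
      omega
    · have := l.isLt
      have hy := y'.2
      rw [← h] at hy
      omega
    · have := i'.isLt
      have hy := y.2
      rw [h] at hy
      omega
    · have := l'.isLt
      have hy := y.2
      rw [h] at hy
      omega
    · congr 2
      exact Subtype.ext (Fin.ext h)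
  · intro x
    by_cases hT : p ≤ (x : ℕ) ∧ (x : ℕ) < p + t
    · refine ⟨Sum.inl ⟨x - p, by omega⟩, ?_⟩
      apply Fin.ext
      simp only [vMap, Sum.elim_inl]
      omega
    · by_cases hV : u ≤ (x : ℕ) ∧ (x : ℕ) < u + w
      · refine ⟨Sum.inr (Sum.inl ⟨x - u, by omega⟩), ?_⟩
        apply Fin.ext
        simp only [vMap, Sum.elim_inr, Sum.elim_inl]
        omega
      · exact ⟨Sum.inr (Sum.inr ⟨x, hT, hV⟩), rfl⟩

/-- The vertex set as a sum of the two intervals and the rest. -/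
noncomputable def vEquiv (hpt : p + t ≤ u) (huw : u + w ≤ n) :
    Fin t ⊕ (Fin w ⊕ OutV n p t u w) ≃ Fin n :=
  Equiv.ofBijective _ (vMap_bij hpt huw)

lemma vEquiv_inl (hpt : p + t ≤ u) (huw : u + w ≤ n) (i : Fin t) :
    vEquiv hpt huw (Sum.inl i) = ⟨p + i, by have := i.isLt; omega⟩ := rfl

lemma vEquiv_inrl (hpt : p + t ≤ u) (huw : u + w ≤ n) (l : Fin w) :
    vEquiv hpt huw (Sum.inr (Sum.inl l)) = ⟨u + l, by have := l.isLt; omega⟩ := rfl

lemma vEquiv_inrr (hpt : p + t ≤ u) (huw : u + w ≤ n) (y : OutV n p t u w) :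
    vEquiv hpt huw (Sum.inr (Sum.inr y)) = y.1 := rfl

lemma prod_vsplit {M : Type*} [CommMonoid M] (hpt : p + t ≤ u) (huw : u + w ≤ n) (F : Fin n → M) :
    ∏ x, F x = (∏ i : Fin t, F ⟨p + i, by have := i.isLt; omega⟩)
      * ((∏ l : Fin w, F ⟨u + l, by have := l.isLt; omega⟩)
        * ∏ y : OutV n p t u w, F y.1) := by
  rw [← Equiv.prod_comp (vEquiv hpt huw) F, Fintype.prod_sum_type, Fintype.prod_sum_type]
  rfl

variable {κ R : Type*} [LinearOrder κ] [Fintype κ] [CommRing R]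

lemma sum_vsplit (hpt : p + t ≤ u) (huw : u + w ≤ n) (F : (Fin n → κ) → R) :
    ∑ f, F f = ∑ g : OutV n p t u w → κ, ∑ a : Fin t → κ, ∑ b : Fin w → κ,
      F (fun x => Sum.elim a (Sum.elim b g) ((vEquiv hpt huw).symm x)) := by
  let e := vEquiv (n := n) (p := p) (t := t) (u := u) (w := w) hpt huw
  let E : (OutV n p t u w → κ) × (Fin t → κ) × (Fin w → κ) ≃ (Fin n → κ) :=
    { toFun := fun z x => Sum.elim z.2.1 (Sum.elim z.2.2 z.1) (e.symm x)
      invFun := fun f => (fun y => f y.1, fun i => f (e (Sum.inl i)),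
        fun l => f (e (Sum.inr (Sum.inl l))))
      left_inv := by
        rintro ⟨g, a, b⟩
        have h1 : ∀ y, e.symm y.1 = Sum.inr (Sum.inr y) := fun y =>
          e.symm_apply_eq.mpr rfl
        simp only [Equiv.symm_apply_apply, Sum.elim_inl, Sum.elim_inr, h1]
      right_inv := by
        intro f
        funext x
        obtain ⟨z, rfl⟩ := e.surjective x
        rcases z with i | l | y
        · simp
        · simp
        · have h1 : e (Sum.inr (Sum.inr y)) = y.1 := rfl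
          have h2 : e.symm y.1 = Sum.inr (Sum.inr y) := e.symm_apply_eq.mpr rfl
          simp only [h1, h2, Sum.elim_inr] }
  rw [← Equiv.sum_comp E F, Fintype.sum_prod_type]
  refine sum_congr rfl fun g _ => ?_
  rw [Fintype.sum_prod_type]
  rfl

/-- Edge factor of a pair of vertices. -/
def edgeF (q : R) (H : ℕ → ℕ) (f : Fin n → κ) (x y : Fin n) : R :=
  if x < y ∧ (y : ℕ) ≤ H x then ef q (f x) (f y) else 1

/-- Weight of the colouring `g` of the vertices outside `T` and `V`. -/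
def outW (q : R) (τ : κ → R) (h : ℕ → ℕ) (g : OutV n p t u w → κ) : R :=
  (∏ y : OutV n p t u w, ∏ y' : OutV n p t u w,
    if y.1 < y'.1 ∧ (y'.1 : ℕ) ≤ h y.1 then ef q (g y) (g y') else 1) * ∏ y, τ (g y)

/-- Single vertex weight on `T` given the outside colouring. -/
def alphaW (q : R) (τ : κ → R) (h : ℕ → ℕ) (g : OutV n p t u w → κ) (c : κ) : R :=
  τ c * ∏ y : OutV n p t u w,
    ((if p + t ≤ (y.1 : ℕ) ∧ (y.1 : ℕ) < u then ef q c (g y) else 1)
      * (if (y.1 : ℕ) < p ∧ p ≤ h y.1 then ef q (g y) c else 1))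

/-- Single vertex weight on `V` given the outside colouring. -/
def betaW (q : R) (τ : κ → R) (h : ℕ → ℕ) (g : OutV n p t u w → κ) (c : κ) : R :=
  τ c * ∏ y : OutV n p t u w,
    ((if u + w ≤ (y.1 : ℕ) ∧ (y.1 : ℕ) ≤ h u then ef q c (g y) else 1)
      * (if p + t ≤ (y.1 : ℕ) ∧ (y.1 : ℕ) < u then ef q (g y) c else 1))

end split

section weight

variable {κ R : Type*} [LinearOrder κ] [Fintype κ] [CommRing R] (q : R) (τ : κ → R)
variable {h : ℕ → ℕ} {n p t u w : ℕ}

theorem wt_vsplit (C : Ctx h n p t u w) (ρ : ℕ → ℕ)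
    (hρ : ∀ x, p ≤ x → x < p + t → u - 1 ≤ ρ x ∧ ρ x ≤ u + w - 1)
    (g : OutV n p t u w → κ) (a : Fin t → κ) (b : Fin w → κ) :
    wt q τ (hmod h p t ρ) n
        (fun x => Sum.elim a (Sum.elim b g) ((vEquiv C.hpt C.huw).symm x))
      = outW q τ h g * (tw (alphaW q τ h g) a * tw (betaW q τ h g) b * cwt q a * cwt q b
        * ∏ i : Fin t, ∏ l : Fin w, if u + (l : ℕ) ≤ ρ (p + i) then ef q (a i) (b l) else 1) := by
  have hpt := C.hpt
  have huw := C.huw
  set e := vEquiv (n := n) (p := p) (t := t) (u := u) (w := w) hpt huw with he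
  set f : Fin n → κ := fun x => Sum.elim a (Sum.elim b g) (e.symm x) with hf
  set H := hmod h p t ρ with hH
  -- the embeddings
  let tv : Fin t → Fin n := fun i => ⟨p + i, by have := i.isLt; omega⟩
  let vv : Fin w → Fin n := fun l => ⟨u + l, by have := l.isLt; omega⟩
  have f1 : ∀ i, f (tv i) = a i := by
    intro i
    have : e.symm (tv i) = Sum.inl i := e.symm_apply_eq.mpr rfl
    simp only [hf, this, Sum.elim_inl]
  have f2 : ∀ l, f (vv l) = b l := by
    intro l
    have : e.symm (vv l) = Sum.inr (Sum.inl l) := e.symm_apply_eq.mpr rfl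
    simp only [hf, this, Sum.elim_inr, Sum.elim_inl]
  have f3 : ∀ y : OutV n p t u w, f y.1 = g y := by
    intro y
    have : e.symm y.1 = Sum.inr (Sum.inr y) := e.symm_apply_eq.mpr rfl
    simp only [hf, this, Sum.elim_inr]
  -- values of the modified function
  have H1 : ∀ i : Fin t, H (tv i) = ρ (p + i) := by
    intro i
    have := i.isLt
    have h1 : p ≤ ((tv i : Fin n) : ℕ) ∧ ((tv i : Fin n) : ℕ) < p + t := by
      show p ≤ p + (i : ℕ) ∧ p + (i : ℕ) < p + t
      omega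
    simp only [hH, hmod, h1, and_self, if_true]
    rfl
  have H2 : ∀ l : Fin w, H (vv l) = h u := by
    intro l
    have := l.isLt
    have h1 : ¬ (p ≤ ((vv l : Fin n) : ℕ) ∧ ((vv l : Fin n) : ℕ) < p + t) := by
      show ¬ (p ≤ u + (l : ℕ) ∧ u + (l : ℕ) < p + t)
      omega
    simp only [hH, hmod, h1, if_false]
    exact C.c4 _ (by show u ≤ u + (l : ℕ); omega) (by show u + (l : ℕ) < u + w; omega)
  have H3 : ∀ y : OutV n p t u w, H y.1 = h y.1 := by
    intro y
    simp only [hH, hmod, y.2.1, if_false]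
  -- the factors
  let A : Fin n → Fin n → R := fun x y => if x < y ∧ (y : ℕ) ≤ H x then ef q (f x) (f y) else 1
  have bTT : ∀ i i' : Fin t, A (tv i) (tv i') = if i < i' then ef q (a i) (a i') else 1 := by
    intro i i'
    have hi' := i'.isLt
    have hi := i.isLt
    have hr := (hρ (p + i) (by omega) (by omega)).1
    simp only [A, H1, f1]
    have : (tv i < tv i' ∧ ((tv i' : Fin n) : ℕ) ≤ ρ (p + i)) ↔ i < i' := by
      show (p + (i : ℕ) < p + (i' : ℕ) ∧ p + (i' : ℕ) ≤ ρ (p + i)) ↔ (i : ℕ) < i'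
      constructor
      · rintro ⟨h1, _⟩
        omega
      · intro h1
        exact ⟨by omega, by omega⟩
    simp only [this]
  have bTV : ∀ (i : Fin t) (l : Fin w), A (tv i) (vv l)
      = if u + (l : ℕ) ≤ ρ (p + i) then ef q (a i) (b l) else 1 := by
    intro i l
    have hi := i.isLt
    simp only [A, H1, f1, f2]
    have : (tv i < vv l ∧ ((vv l : Fin n) : ℕ) ≤ ρ (p + i)) ↔ u + (l : ℕ) ≤ ρ (p + i) := by
      show (p + (i : ℕ) < u + (l : ℕ) ∧ u + (l : ℕ) ≤ ρ (p + i)) ↔ u + (l : ℕ) ≤ ρ (p + i)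
      constructor
      · rintro ⟨_, h1⟩
        exact h1
      · intro h1
        exact ⟨by omega, h1⟩
    simp only [this]
  have bTO : ∀ (i : Fin t) (y : OutV n p t u w), A (tv i) y.1
      = if p + t ≤ (y.1 : ℕ) ∧ (y.1 : ℕ) < u then ef q (a i) (g y) else 1 := by
    intro i y
    have hi := i.isLt
    have hr := hρ (p + i) (by omega) (by omega)
    have hy1 := y.2.1
    have hy2 := y.2.2
    simp only [A, H1, f1, f3]
    have : (tv i < y.1 ∧ ((y.1 : Fin n) : ℕ) ≤ ρ (p + i))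
        ↔ p + t ≤ (y.1 : ℕ) ∧ (y.1 : ℕ) < u := by
      show (p + (i : ℕ) < (y.1 : ℕ) ∧ (y.1 : ℕ) ≤ ρ (p + i))
        ↔ p + t ≤ (y.1 : ℕ) ∧ (y.1 : ℕ) < u
      constructor
      · rintro ⟨h1, h2⟩
        omega
      · rintro ⟨h1, h2⟩
        have := C.ht
        omega
    simp only [this]
  have bVT : ∀ (l : Fin w) (i : Fin t), A (vv l) (tv i) = 1 := by
    intro l i
    have hi := i.isLt
    have : ¬ (vv l < tv i ∧ ((tv i : Fin n) : ℕ) ≤ H (vv l)) := by
      rintro ⟨h1, _⟩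
      have h2 : u + (l : ℕ) < p + (i : ℕ) := h1
      omega
    simp only [A, this, if_false]
  have bVV : ∀ l l' : Fin w, A (vv l) (vv l') = if l < l' then ef q (b l) (b l') else 1 := by
    intro l l'
    have hl' := l'.isLt
    have h5 := C.c5
    simp only [A, H2, f2]
    have : (vv l < vv l' ∧ ((vv l' : Fin n) : ℕ) ≤ h u) ↔ l < l' := by
      show (u + (l : ℕ) < u + (l' : ℕ) ∧ u + (l' : ℕ) ≤ h u) ↔ (l : ℕ) < l'
      constructor
      · rintro ⟨h1, _⟩
        omega
      · intro h1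
        exact ⟨by omega, by omega⟩
    simp only [this]
  have bVO : ∀ (l : Fin w) (y : OutV n p t u w), A (vv l) y.1
      = if u + w ≤ (y.1 : ℕ) ∧ (y.1 : ℕ) ≤ h u then ef q (b l) (g y) else 1 := by
    intro l y
    have hl := l.isLt
    have hy2 := y.2.2
    simp only [A, H2, f2, f3]
    have : (vv l < y.1 ∧ ((y.1 : Fin n) : ℕ) ≤ h u)
        ↔ u + w ≤ (y.1 : ℕ) ∧ (y.1 : ℕ) ≤ h u := by
      show (u + (l : ℕ) < (y.1 : ℕ) ∧ (y.1 : ℕ) ≤ h u) ↔ u + w ≤ (y.1 : ℕ) ∧ (y.1 : ℕ) ≤ h u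
      constructor
      · rintro ⟨h1, h2⟩
        exact ⟨by omega, h2⟩
      · rintro ⟨h1, h2⟩
        exact ⟨by omega, h2⟩
    simp only [this]
  have bOT : ∀ (y : OutV n p t u w) (i : Fin t), A y.1 (tv i)
      = if (y.1 : ℕ) < p ∧ p ≤ h y.1 then ef q (g y) (a i) else 1 := by
    intro y i
    have hi := i.isLt
    have hy1 := y.2.1
    have hc := C.c1 (y.1 : ℕ)
    simp only [A, H3, f1, f3]
    have : (y.1 < tv i ∧ ((tv i : Fin n) : ℕ) ≤ h y.1) ↔ (y.1 : ℕ) < p ∧ p ≤ h y.1 := by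
      show ((y.1 : ℕ) < p + (i : ℕ) ∧ p + (i : ℕ) ≤ h y.1) ↔ (y.1 : ℕ) < p ∧ p ≤ h y.1
      constructor
      · rintro ⟨h1, h2⟩
        constructor <;> omega
      · rintro ⟨h1, h2⟩
        have := hc h1
        constructor <;> omega
    simp only [this]
  have bOV : ∀ (y : OutV n p t u w) (l : Fin w), A y.1 (vv l)
      = if p + t ≤ (y.1 : ℕ) ∧ (y.1 : ℕ) < u then ef q (g y) (b l) else 1 := by
    intro y l
    have hl := l.isLt
    have hy1 := y.2.1
    have hy2 := y.2.2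
    have hc := C.c2 (y.1 : ℕ)
    have hc3 := C.c3 (y.1 : ℕ)
    simp only [A, H3, f2, f3]
    have : (y.1 < vv l ∧ ((vv l : Fin n) : ℕ) ≤ h y.1) ↔ p + t ≤ (y.1 : ℕ) ∧ (y.1 : ℕ) < u := by
      show ((y.1 : ℕ) < u + (l : ℕ) ∧ u + (l : ℕ) ≤ h y.1) ↔ p + t ≤ (y.1 : ℕ) ∧ (y.1 : ℕ) < u
      constructor
      · rintro ⟨h1, h2⟩
        by_cases h3 : (y.1 : ℕ) < p
        · have := hc h3
          omega
        · constructor <;> omega
      · rintro ⟨h1, h2⟩
        have := hc3 h1 h2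
        constructor <;> omega
    simp only [this]
  have bOO : ∀ y y' : OutV n p t u w, A y.1 y'.1
      = if y.1 < y'.1 ∧ (y'.1 : ℕ) ≤ h y.1 then ef q (g y) (g y') else 1 := by
    intro y y'
    simp only [A, H3, f3]
  -- assembling
  have hA : (∏ i : Fin n, ∏ j : Fin n, if i < j ∧ (j : ℕ) ≤ H i then ef q (f i) (f j) else 1)
      = ∏ i : Fin n, ∏ j : Fin n, A i j := rfl
  have inner : ∀ x : Fin n, ∏ j : Fin n, A x j
      = (∏ i : Fin t, A x (tv i)) * ((∏ l : Fin w, A x (vv l))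
        * ∏ y : OutV n p t u w, A x y.1) := fun x => prod_vsplit hpt huw (A x)
  have outer1 : ∏ x : Fin n, (∏ i : Fin t, A x (tv i)) * ((∏ l : Fin w, A x (vv l))
        * ∏ y : OutV n p t u w, A x y.1)
      = (∏ i0 : Fin t, ((∏ i : Fin t, A (tv i0) (tv i)) * ((∏ l : Fin w, A (tv i0) (vv l))
          * ∏ y : OutV n p t u w, A (tv i0) y.1)))
        * ((∏ l0 : Fin w, ((∏ i : Fin t, A (vv l0) (tv i)) * ((∏ l : Fin w, A (vv l0) (vv l))
          * ∏ y : OutV n p t u w, A (vv l0) y.1)))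
        * ∏ y0 : OutV n p t u w, ((∏ i : Fin t, A y0.1 (tv i)) * ((∏ l : Fin w, A y0.1 (vv l))
          * ∏ y : OutV n p t u w, A y0.1 y.1))) :=
    prod_vsplit hpt huw _
  have hprod : ∏ x : Fin n, τ (f x)
      = (∏ i : Fin t, τ (a i)) * ((∏ l : Fin w, τ (b l)) * ∏ y : OutV n p t u w, τ (g y)) := by
    have := prod_vsplit (M := R) hpt huw (fun x => τ (f x))
    rw [this]
    simp only [show ∀ i : Fin t, f ⟨p + i, by have := i.isLt; omega⟩ = a i from f1,
      show ∀ l : Fin w, f ⟨u + l, by have := l.isLt; omega⟩ = b l from f2, f3]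
  have hP : (∏ x : Fin n, ∏ j : Fin n, A x j)
      = (∏ i : Fin t, ∏ i' : Fin t, A (tv i) (tv i'))
        * (∏ i : Fin t, ∏ l : Fin w, A (tv i) (vv l))
        * (∏ i : Fin t, ∏ y : OutV n p t u w, A (tv i) y.1)
        * (∏ l : Fin w, ∏ i : Fin t, A (vv l) (tv i))
        * (∏ l : Fin w, ∏ l' : Fin w, A (vv l) (vv l'))
        * (∏ l : Fin w, ∏ y : OutV n p t u w, A (vv l) y.1)
        * (∏ y : OutV n p t u w, ∏ i : Fin t, A y.1 (tv i))
        * (∏ y : OutV n p t u w, ∏ l : Fin w, A y.1 (vv l))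
        * (∏ y : OutV n p t u w, ∏ y' : OutV n p t u w, A y.1 y'.1) := by
    rw [prod_congr rfl (fun x _ => inner x), outer1]
    simp only [prod_mul_distrib]
    ring
  have hTT : (∏ i : Fin t, ∏ i' : Fin t, A (tv i) (tv i')) = cwt q a := by
    simp only [bTT]
    rfl
  have hVV : (∏ l : Fin w, ∏ l' : Fin w, A (vv l) (vv l')) = cwt q b := by
    simp only [bVV]
    rfl
  have hVT : (∏ l : Fin w, ∏ i : Fin t, A (vv l) (tv i)) = 1 := by
    simp only [bVT, prod_const_one]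
  have hOT : (∏ y : OutV n p t u w, ∏ i : Fin t, A y.1 (tv i))
      = ∏ i : Fin t, ∏ y : OutV n p t u w,
        if (y.1 : ℕ) < p ∧ p ≤ h y.1 then ef q (g y) (a i) else 1 := by
    rw [prod_comm]
    simp only [bOT]
  have hOV : (∏ y : OutV n p t u w, ∏ l : Fin w, A y.1 (vv l))
      = ∏ l : Fin w, ∏ y : OutV n p t u w,
        if p + t ≤ (y.1 : ℕ) ∧ (y.1 : ℕ) < u then ef q (g y) (b l) else 1 := by
    rw [prod_comm]
    simp only [bOV]
  have hTO : (∏ i : Fin t, ∏ y : OutV n p t u w, A (tv i) y.1)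
      = ∏ i : Fin t, ∏ y : OutV n p t u w,
        if p + t ≤ (y.1 : ℕ) ∧ (y.1 : ℕ) < u then ef q (a i) (g y) else 1 := by
    simp only [bTO]
  have hVO : (∏ l : Fin w, ∏ y : OutV n p t u w, A (vv l) y.1)
      = ∏ l : Fin w, ∏ y : OutV n p t u w,
        if u + w ≤ (y.1 : ℕ) ∧ (y.1 : ℕ) ≤ h u then ef q (b l) (g y) else 1 := by
    simp only [bVO]
  have hOO : (∏ y : OutV n p t u w, ∏ y' : OutV n p t u w, A y.1 y'.1)
      = ∏ y : OutV n p t u w, ∏ y' : OutV n p t u w,
        if y.1 < y'.1 ∧ (y'.1 : ℕ) ≤ h y.1 then ef q (g y) (g y') else 1 := by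
    simp only [bOO]
  have hTV : (∏ i : Fin t, ∏ l : Fin w, A (tv i) (vv l))
      = ∏ i : Fin t, ∏ l : Fin w, if u + (l : ℕ) ≤ ρ (p + i) then ef q (a i) (b l) else 1 := by
    simp only [bTV]
  have hta : tw (alphaW q τ h g) a = (∏ i : Fin t, τ (a i))
      * (∏ i : Fin t, ∏ y : OutV n p t u w,
        if p + t ≤ (y.1 : ℕ) ∧ (y.1 : ℕ) < u then ef q (a i) (g y) else 1)
      * (∏ i : Fin t, ∏ y : OutV n p t u w,
        if (y.1 : ℕ) < p ∧ p ≤ h y.1 then ef q (g y) (a i) else 1) := by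
    unfold tw alphaW
    simp only [prod_mul_distrib]
    ring
  have htb : tw (betaW q τ h g) b = (∏ l : Fin w, τ (b l))
      * (∏ l : Fin w, ∏ y : OutV n p t u w,
        if u + w ≤ (y.1 : ℕ) ∧ (y.1 : ℕ) ≤ h u then ef q (b l) (g y) else 1)
      * (∏ l : Fin w, ∏ y : OutV n p t u w,
        if p + t ≤ (y.1 : ℕ) ∧ (y.1 : ℕ) < u then ef q (g y) (b l) else 1) := by
    unfold tw betaW
    simp only [prod_mul_distrib]
    ring
  have hL : wt q τ H n f = (∏ x : Fin n, ∏ j : Fin n, A x j) * ∏ x : Fin n, τ (f x) := rfl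
  rw [hL, hP, hTT, hVV, hVT, hOT, hOV, hTO, hVO, hOO, hTV, hprod, hta, htb]
  unfold outW
  ring

end weight

end Vale.Agent.Lib.P066T
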