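import Vale.Agent.Lib.P066T.Pos

/-!
The class of graphs reachable by the divided modular law from cliques.
-/

namespace Vale.Agent.Lib.P066T

open Finset Vale.Agent.Lib.P066H

theorem Twin.pos {n : ℕ} {h : ℕ → ℕ} {d : Polynomial ℕ} (H : Twin n h d) : Pos n h d := by
  induction H with
  | clique n => exact Pos.clique n
  | union _ _ ih₁ ih₂ => exact Pos.union ih₁ ih₂
  | weaken _ ih => exact ih.weaken
  | congr hh _ ih => exact Pos.congr hh ih
  | mirror hm _ ih => exact Pos.mirror hm ih
  | rule O D _ ih => exact Pos.rule O D ih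

/-- Every graph of the class has an elementary expansion with coefficients in `ℕ[q]`. -/
theorem Twin.expansion {n : ℕ} {h : ℕ → ℕ} {d : Polynomial ℕ} (H : Twin n h d) :
    ∃ c : Nat.Partition n → Polynomial ℕ, ∀ N : ℕ,
      chromQ h n N = MvPolynomial.C (d.map (Nat.castRingHom ℤ))
        * ∑ l : Nat.Partition n, MvPolynomial.C ((c l).map (Nat.castRingHom ℤ))
          * (l.parts.map (MvPolynomial.esymm (Fin N) (Polynomial ℤ))).prod := by
  obtain ⟨F, hF, hF'⟩ := H.pos
  obtain ⟨c, hc⟩ := main_partition n F hF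
  refine ⟨c, fun N => ?_⟩
  rw [hF', hc]
  rfl

end Vale.Agent.Lib.P066T
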